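import Vale.Agent.Lib.P121.Basic

/-!
# P121 helper: push-forwards of restricted Haar measure under maps that are
anti-Lipschitz on the set are absolutely continuous.
-/

open MeasureTheory Measure Set Module
open scoped NNReal ENNReal

namespace Vale.Agent.P121

/-- If `dist x y ≤ C * dist (f x) (f y)` on `A` and `f '' A` is null for the Haar measure `μ`,
then `A` is null. -/
theorem null_of_antilipschitzOn_of_image_null
    {E : Type*} [NormedAddCommGroup E] [NormedSpace ℝ E] [FiniteDimensional ℝ E]
    [MeasurableSpace E] [BorelSpace E] (μ : Measure E) [μ.IsAddHaarMeasure]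
    {f : E → E} {A : Set E} {C : ℝ≥0}
    (hf : ∀ x ∈ A, ∀ y ∈ A, dist x y ≤ C * dist (f x) (f y))
    (hN : μ (f '' A) = 0) : μ A = 0 := by
  have h1 : (μH[(finrank ℝ E : ℝ)] : Measure E) ≪ μ :=
    absolutelyContinuous_isAddHaarMeasure _ _
  have h2 : μ ≪ (μH[(finrank ℝ E : ℝ)] : Measure E) :=
    absolutelyContinuous_isAddHaarMeasure _ _
  apply h2
  have hN' : (μH[(finrank ℝ E : ℝ)] : Measure E) (f '' A) = 0 := h1 hN
  set g : A → E := fun x => f x.1 with hg
  have hga : AntilipschitzWith C g := by
    apply AntilipschitzWith.of_le_mul_dist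
    intro x y
    exact hf x.1 x.2 y.1 y.2
  have h3 := hga.le_hausdorffMeasure_image (d := (finrank ℝ E : ℝ)) (by positivity) Set.univ
  have h4 : g '' Set.univ = f '' A := by
    ext z
    constructor
    · rintro ⟨x, -, rfl⟩
      exact ⟨x.1, x.2, rfl⟩
    · rintro ⟨x, hx, rfl⟩
      exact ⟨⟨x, hx⟩, trivial, rfl⟩
  rw [h4, hN', mul_zero] at h3
  have h5 : (μH[(finrank ℝ E : ℝ)] : Measure A) Set.univ = 0 := le_antisymm h3 zero_le
  have h6 := (isometry_subtype_coe (s := A)).hausdorffMeasure_image
    (d := (finrank ℝ E : ℝ)) (Or.inl (by positivity)) Set.univ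
  rw [h5] at h6
  simpa using h6

/-- Push-forward of `μ.restrict S` under a measurable map which is anti-Lipschitz on `S`
is absolutely continuous with respect to `μ`. -/
theorem map_restrict_absolutelyContinuous_of_antilipschitzOn
    {E : Type*} [NormedAddCommGroup E] [NormedSpace ℝ E] [FiniteDimensional ℝ E]
    [MeasurableSpace E] [BorelSpace E] (μ : Measure E) [μ.IsAddHaarMeasure]
    {f : E → E} {S : Set E} {C : ℝ≥0}
    (hf : ∀ x ∈ S, ∀ y ∈ S, dist x y ≤ C * dist (f x) (f y))
    (hfm : Measurable f) :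
    Measure.map f (μ.restrict S) ≪ μ := by
  refine Measure.AbsolutelyContinuous.mk fun N hNm hN => ?_
  rw [Measure.map_apply hfm hNm, Measure.restrict_apply (hfm hNm)]
  apply null_of_antilipschitzOn_of_image_null μ (f := f) (C := C)
  · intro x hx y hy
    exact hf x hx.2 y hy.2
  · refine measure_mono_null ?_ hN
    rintro _ ⟨x, hx, rfl⟩
    exact hx.1

end Vale.Agent.P121

namespace Vale.Agent.Lib.P121

/-- The form used in the P121 development. -/
theorem map_ac_of_antilip (f : E3 → E3) (hf : Measurable f) (s : Set E3) (_hs : MeasurableSet s)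
    (C : ℝ) (h : ∀ x ∈ s, ∀ y ∈ s, ‖x - y‖ ≤ C * ‖f x - f y‖) :
    ((volume : Measure E3).restrict s).map f ≪ volume := by
  apply Vale.Agent.P121.map_restrict_absolutelyContinuous_of_antilipschitzOn
    (volume : Measure E3) (C := C.toNNReal) _ hf
  intro x hx y hy
  rw [dist_eq_norm, dist_eq_norm]
  refine (h x hx y hy).trans ?_
  exact mul_le_mul_of_nonneg_right (Real.le_coe_toNNReal C) (norm_nonneg _)

end Vale.Agent.Lib.P121
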