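import Vale.Agent.Lib.P121.Defs

/-!
# P121: auxiliary definitions for the counterexample

`Ef v = -v/|v|^3` is the gradient of `1/|v|`, `Einv` its explicit inverse.
`psi`, `uV e` are the two explicit potentials, `IsSol e a b c` is the first order system
(E1) `Ef (a-b) + Ef (a-c) = grad psi a`, (E2) `Ef (b-a) + Ef (b-c) = grad (uV e) b`
together with the localisation `b` near `e`, `c` near `-e`.
-/

namespace Vale.Agent.Lib.P121

/-- gradient of the Coulomb potential. -/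
noncomputable def Ef (v : E3) : E3 := -((‖v‖ ^ 3)⁻¹ • v)

/-- inverse map of `Ef`. -/
noncomputable def Einv (w : E3) : E3 := -((‖w‖ * Real.sqrt ‖w‖)⁻¹ • w)

/-- radius of the central blob. -/
noncomputable def r0 : ℝ := 1 / 1000000

/-- radius bound for all blobs. -/
noncomputable def eta : ℝ := 1 / 1000

/-- the central blob. -/
def U0 : Set E3 := Metric.closedBall 0 r0

/-- real valued Coulomb cost (only meaningful for pairwise distinct points). -/
noncomputable def cR (x y z : E3) : ℝ := ‖x - y‖⁻¹ + ‖x - z‖⁻¹ + ‖y - z‖⁻¹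

/-- potential on the central blob (radial). -/
noncomputable def psi (a : E3) : ℝ := 3 / 2 - 100 * ‖a‖ ^ 2

/-- potential on the blob at `e`. -/
noncomputable def uV (e b : E3) : ℝ := 1 / 2 - 5 / 4 * inner ℝ e (b - e) - 500 * ‖b - e‖ ^ 2

/-- the first order system. -/
def IsSol (e a b c : E3) : Prop :=
  ‖b - e‖ ≤ r0 ∧ ‖c + e‖ ≤ eta ∧
    Ef (a - b) + Ef (a - c) = -((200 : ℝ) • a) ∧
    Ef (b - a) + Ef (b - c) = -((5 / 4 : ℝ) • e) - (1000 : ℝ) • (b - e)

theorem mem_U0 {a : E3} : a ∈ U0 ↔ ‖a‖ ≤ r0 := by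
  simp [U0]

theorem measurableSet_U0 : MeasurableSet U0 := Metric.isClosed_closedBall.measurableSet

/-- distances between points close to `p`, `q`. -/
theorem norm_sub_range (p q x y : E3) (D t s : ℝ) (h : ‖p - q‖ = D) (hx : ‖x - p‖ ≤ t)
    (hy : ‖y - q‖ ≤ s) : D - (t + s) ≤ ‖x - y‖ ∧ ‖x - y‖ ≤ D + (t + s) := by
  constructor
  · have h1 : ‖p - q‖ ≤ ‖x - p‖ + ‖x - y‖ + ‖y - q‖ := by
      have : p - q = -(x - p) + (x - y) + (y - q) := by abel
      calc ‖p - q‖ = ‖-(x - p) + (x - y) + (y - q)‖ := by rw [← this]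
        _ ≤ ‖-(x - p) + (x - y)‖ + ‖y - q‖ := norm_add_le _ _
        _ ≤ ‖-(x - p)‖ + ‖x - y‖ + ‖y - q‖ := by gcongr; exact norm_add_le _ _
        _ = ‖x - p‖ + ‖x - y‖ + ‖y - q‖ := by rw [norm_neg]
    linarith
  · have h1 : ‖x - y‖ ≤ ‖x - p‖ + ‖p - q‖ + ‖y - q‖ := by
      have : x - y = (x - p) + (p - q) + -(y - q) := by abel
      calc ‖x - y‖ = ‖(x - p) + (p - q) + -(y - q)‖ := by rw [← this]
        _ ≤ ‖(x - p) + (p - q)‖ + ‖-(y - q)‖ := norm_add_le _ _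
        _ ≤ ‖x - p‖ + ‖p - q‖ + ‖-(y - q)‖ := by gcongr; exact norm_add_le _ _
        _ = ‖x - p‖ + ‖p - q‖ + ‖y - q‖ := by rw [norm_neg]
    linarith

/-- the three distances of a configuration close to `(0, e, -e)`. -/
theorem config_range (e a b c : E3) (he : ‖e‖ = 1) (ha : ‖a‖ ≤ eta) (hb : ‖b - e‖ ≤ eta)
    (hc : ‖c + e‖ ≤ eta) :
    (0.998 ≤ ‖a - b‖ ∧ ‖a - b‖ ≤ 1.002) ∧ (0.998 ≤ ‖a - c‖ ∧ ‖a - c‖ ≤ 1.002) ∧
      (1.998 ≤ ‖b - c‖ ∧ ‖b - c‖ ≤ 2.002) := by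
  have h1 := norm_sub_range 0 e a b 1 eta eta (by simpa using he) (by simpa using ha) hb
  have h2 := norm_sub_range 0 (-e) a c 1 eta eta (by simpa using he) (by simpa using ha)
    (by simpa using hc)
  have h3 := norm_sub_range e (-e) b c 2 eta eta
    (by
      have : e - -e = (2 : ℝ) • e := by rw [two_smul]; abel
      rw [this, norm_smul, he]; norm_num) hb (by simpa using hc)
  unfold eta at h1 h2 h3
  refine ⟨⟨?_, ?_⟩, ⟨?_, ?_⟩, ⟨?_, ?_⟩⟩ <;> norm_num at * <;> linarith [h1.1, h1.2, h2.1, h2.2, h3.1, h3.2]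

theorem r0_le_eta : r0 ≤ eta := by unfold r0 eta; norm_num

end Vale.Agent.Lib.P121
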