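import Vale.Agent.Lib.P121.Basic

/-!
# P121 task F2: `Ef` is odd, its norm, and it is `2/d^3`-Lipschitz on `{d ≤ ‖v‖}`

Sketch for `Ef_lip`.  With `ι v = v/‖v‖^2` one has `‖ι v - ι w‖ = ‖v-w‖/(‖v‖‖w‖)`
(square both sides / expand inner products; Mathlib may have this for `EuclideanGeometry.inversion`,
`dist_inversion_inversion`).  Then
`v/‖v‖^3 - w/‖w‖^3 = (ι v - ι w)/‖v‖ + (1/‖v‖ - 1/‖w‖) ι w`, whose norm is at most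
`‖v-w‖ (1/(‖v‖^2‖w‖) + 1/(‖v‖‖w‖^2)) ≤ 2‖v-w‖/d^3`.
-/

namespace Vale.Agent.Lib.P121

theorem Ef_neg (v : E3) : Ef (-v) = -Ef v := by
  unfold Ef
  rw [norm_neg, smul_neg]

theorem Ef_sub_comm (x y : E3) : Ef (x - y) = -Ef (y - x) := by
  rw [← Ef_neg, neg_sub]

theorem norm_Ef (v : E3) (hv : v ≠ 0) : ‖Ef v‖ = (‖v‖ ^ 2)⁻¹ := by
  have h : 0 < ‖v‖ := norm_pos_iff.mpr hv
  unfold Ef
  rw [norm_neg, norm_smul, norm_inv, norm_pow, norm_norm]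
  field_simp

/-- values at the base configuration -/
theorem Ef_unit (e : E3) (he : ‖e‖ = 1) : Ef e = -e := by
  unfold Ef
  rw [he]
  simp

theorem Ef_two_unit (e : E3) (he : ‖e‖ = 1) : Ef ((2 : ℝ) • e) = -((1 / 4 : ℝ) • e) := by
  unfold Ef
  rw [norm_smul, he, smul_smul]
  norm_num

/-- inversion identity. -/
theorem norm_inversion_sub (v w : E3) (hv : v ≠ 0) (hw : w ≠ 0) :
    ‖(‖v‖ ^ 2)⁻¹ • v - (‖w‖ ^ 2)⁻¹ • w‖ = ‖v - w‖ / (‖v‖ * ‖w‖) := by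
  have h : 0 < ‖v‖ := norm_pos_iff.mpr hv
  have h' : 0 < ‖w‖ := norm_pos_iff.mpr hw
  have hsq : ‖(‖v‖ ^ 2)⁻¹ • v - (‖w‖ ^ 2)⁻¹ • w‖ ^ 2 = (‖v - w‖ / (‖v‖ * ‖w‖)) ^ 2 := by
    rw [norm_sub_sq_real, div_pow, norm_sub_sq_real, norm_smul, norm_smul, inner_smul_left,
      inner_smul_right]
    simp only [norm_inv, norm_pow, norm_norm, RCLike.conj_to_real]
    field_simp
    ring
  exact (pow_left_inj₀ (norm_nonneg _) (by positivity) two_ne_zero).mp hsq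

theorem Ef_lip (d : ℝ) (hd : 0 < d) (v w : E3) (hv : d ≤ ‖v‖) (hw : d ≤ ‖w‖) :
    ‖Ef v - Ef w‖ ≤ 2 / d ^ 3 * ‖v - w‖ := by
  have h : 0 < ‖v‖ := lt_of_lt_of_le hd hv
  have h' : 0 < ‖w‖ := lt_of_lt_of_le hd hw
  have hv0 : v ≠ 0 := norm_pos_iff.mp h
  have hw0 : w ≠ 0 := norm_pos_iff.mp h'
  have e : Ef v - Ef w = -((‖v‖)⁻¹ • ((‖v‖ ^ 2)⁻¹ • v - (‖w‖ ^ 2)⁻¹ • w)
      + ((‖v‖)⁻¹ - (‖w‖)⁻¹) • ((‖w‖ ^ 2)⁻¹ • w)) := by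
    unfold Ef
    simp only [smul_sub, smul_smul, sub_mul, sub_smul]
    have a1 : (‖v‖)⁻¹ * (‖v‖ ^ 2)⁻¹ = (‖v‖ ^ 3)⁻¹ := by field_simp
    have a2 : (‖w‖)⁻¹ * (‖w‖ ^ 2)⁻¹ = (‖w‖ ^ 3)⁻¹ := by field_simp
    rw [a1, a2]
    abel
  rw [e, norm_neg]
  refine (norm_add_le _ _).trans ?_
  rw [norm_smul, norm_smul, norm_inversion_sub v w hv0 hw0, norm_smul]
  simp only [norm_inv, norm_pow, norm_norm]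
  have hab : |(‖v‖)⁻¹ - (‖w‖)⁻¹| ≤ ‖v - w‖ / (‖v‖ * ‖w‖) := by
    have : (‖v‖)⁻¹ - (‖w‖)⁻¹ = (‖w‖ - ‖v‖) / (‖v‖ * ‖w‖) := by field_simp
    rw [this, abs_div, abs_of_pos (mul_pos h h')]
    gcongr
    rw [abs_sub_comm]
    exact abs_norm_sub_norm_le v w
  have hn : 0 ≤ ‖v - w‖ := norm_nonneg _
  have b1 : (‖v‖)⁻¹ * (‖v - w‖ / (‖v‖ * ‖w‖)) ≤ 1 / d ^ 3 * ‖v - w‖ := by
    have : (‖v‖)⁻¹ * (‖v - w‖ / (‖v‖ * ‖w‖)) = 1 / (‖v‖ * ‖v‖ * ‖w‖) * ‖v - w‖ := by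
      field_simp
    rw [this]
    gcongr
    calc d ^ 3 = d * d * d := by ring
      _ ≤ ‖v‖ * ‖v‖ * ‖w‖ := by gcongr
  have b2 : |(‖v‖)⁻¹ - (‖w‖)⁻¹| * ((‖w‖ ^ 2)⁻¹ * ‖w‖) ≤ 1 / d ^ 3 * ‖v - w‖ := by
    have c1 : (‖w‖ ^ 2)⁻¹ * ‖w‖ = (‖w‖)⁻¹ := by field_simp
    rw [c1]
    calc |(‖v‖)⁻¹ - (‖w‖)⁻¹| * (‖w‖)⁻¹ ≤ ‖v - w‖ / (‖v‖ * ‖w‖) * (‖w‖)⁻¹ := by gcongr
      _ = 1 / (‖v‖ * ‖w‖ * ‖w‖) * ‖v - w‖ := by field_simp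
      _ ≤ 1 / d ^ 3 * ‖v - w‖ := by
        gcongr
        calc d ^ 3 = d * d * d := by ring
          _ ≤ ‖v‖ * ‖w‖ * ‖w‖ := by gcongr
  calc _ ≤ 1 / d ^ 3 * ‖v - w‖ + 1 / d ^ 3 * ‖v - w‖ := add_le_add b1 b2
    _ = 2 / d ^ 3 * ‖v - w‖ := by ring

end Vale.Agent.Lib.P121
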