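import Vale.Agent.Lib.P121.FieldLower
import Vale.Agent.Lib.P121.FieldLip

/-!
# P121 task L1: the quadratic lower bound around a solution of the system

Let `(a,b,c)` solve the system, `δa = a'-a`, `δb = b'-b`.  Apply `inv_norm_lower` to the pairs
`(a-b, a'-b')`, `(a-c, a'-c)`, `(b-c, b'-c)`; all of `‖a-b‖, ‖a-c‖, ‖b-c‖` are `≥ 0.998`
(`config_range`), so `1/(2‖.‖^3) ≤ 0.51`.  Sum:
`cR a' b' c ≥ cR a b c + ⟪Ef(a-b)+Ef(a-c), δa⟫ + ⟪Ef(b-a)+Ef(b-c), δb⟫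
    - 0.51 (‖δa-δb‖^2 + ‖δa‖^2 + ‖δb‖^2)`     (use `Ef_sub_comm`),
and `‖δa-δb‖^2 ≤ 2‖δa‖^2 + 2‖δb‖^2`.  By (E1), (E2) the two inner products are
`-200⟪a,δa⟫` and `⟪-(5/4)e - 1000(b-e), δb⟫`, while
`psi a' = psi a - 200⟪a,δa⟫ - 100‖δa‖^2`,
`uV e b' = uV e b + ⟪-(5/4)e - 1000(b-e), δb⟫ - 500‖δb‖^2`.
So the difference of the two sides is at least `(100-1.53)‖δa‖^2 + (500-1.53)‖δb‖^2`.
-/

namespace Vale.Agent.Lib.P121

/-- the error term of `inv_norm_lower` when `‖v‖ ≥ 0.998`. -/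
theorem err_le (s q : ℝ) (hs : 0.998 ≤ s) (hq : 0 ≤ q) : q / (2 * s ^ 3) ≤ 0.51 * q := by
  have h3 : (0.998 : ℝ) ^ 3 ≤ s ^ 3 := pow_le_pow_left₀ (by norm_num) hs 3
  have hpos : (0 : ℝ) < 2 * s ^ 3 := by
    have : (0 : ℝ) < (0.998 : ℝ) ^ 3 := by norm_num
    linarith
  rw [div_le_iff₀ hpos]
  have h4 : (1 : ℝ) ≤ 0.51 * (2 * s ^ 3) := by
    have : (1 : ℝ) ≤ 0.51 * (2 * (0.998 : ℝ) ^ 3) := by norm_num
    linarith
  calc q = q * 1 := by ring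
    _ ≤ q * (0.51 * (2 * s ^ 3)) := mul_le_mul_of_nonneg_left h4 hq
    _ = 0.51 * q * (2 * s ^ 3) := by ring

theorem local_ineq (e a b c : E3) (he : ‖e‖ = 1) (ha : ‖a‖ ≤ r0) (h : IsSol e a b c)
    (a' b' : E3) (h1 : a' ≠ b') (h2 : a' ≠ c) (h3 : b' ≠ c) :
    cR a b c - psi a - uV e b + (‖a' - a‖ ^ 2 + ‖b' - b‖ ^ 2) ≤
      cR a' b' c - psi a' - uV e b' := by
  obtain ⟨hb, hc, E1, E2⟩ := h
  obtain ⟨⟨r1, -⟩, ⟨r2, -⟩, ⟨r3, -⟩⟩ :=
    config_range e a b c he (ha.trans r0_le_eta) (hb.trans r0_le_eta) hc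
  have n1 : a - b ≠ 0 := by
    intro h0; rw [h0, norm_zero] at r1; norm_num at r1
  have n2 : a - c ≠ 0 := by
    intro h0; rw [h0, norm_zero] at r2; norm_num at r2
  have n3 : b - c ≠ 0 := by
    intro h0; rw [h0, norm_zero] at r3; norm_num at r3
  have I1 := inv_norm_lower (a - b) (a' - b') n1 (sub_ne_zero.mpr h1)
  have I2 := inv_norm_lower (a - c) (a' - c) n2 (sub_ne_zero.mpr h2)
  have I3 := inv_norm_lower (b - c) (b' - c) n3 (sub_ne_zero.mpr h3)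
  have e1 := err_le ‖a - b‖ (‖a' - b' - (a - b)‖ ^ 2) r1 (by positivity)
  have e2 := err_le ‖a - c‖ (‖a' - c - (a - c)‖ ^ 2) r2 (by positivity)
  have e3 := err_le ‖b - c‖ (‖b' - c - (b - c)‖ ^ 2) (by linarith) (by positivity)
  -- the increments
  obtain ⟨da, hda⟩ : ∃ da, da = a' - a := ⟨_, rfl⟩
  obtain ⟨db, hdb⟩ : ∃ db, db = b' - b := ⟨_, rfl⟩
  have d1 : a' - b' - (a - b) = da - db := by rw [hda, hdb]; abel
  have d2 : a' - c - (a - c) = da := by rw [hda]; abel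
  have d3 : b' - c - (b - c) = db := by rw [hdb]; abel
  rw [d1] at I1 e1
  rw [d2] at I2 e2
  rw [d3] at I3 e3
  rw [← hda, ← hdb]
  have ha' : a' = a + da := by rw [hda]; abel
  have hb' : b' - e = (b - e) + db := by rw [hdb]; abel
  -- linear terms
  have L1 : inner ℝ (Ef (a - b)) (da - db) + inner ℝ (Ef (a - c)) da + inner ℝ (Ef (b - c)) db
      = inner ℝ (Ef (a - b) + Ef (a - c)) da + inner ℝ (Ef (b - a) + Ef (b - c)) db := by
    rw [Ef_sub_comm b a]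
    simp only [inner_add_left, inner_sub_right, inner_neg_left]
    ring
  rw [E1, E2] at L1
  have L2 : inner ℝ (-((200 : ℝ) • a)) da = -200 * inner ℝ a da := by
    rw [inner_neg_left, real_inner_smul_left]; ring
  have L3 : inner ℝ (-((5 / 4 : ℝ) • e) - (1000 : ℝ) • (b - e)) db
      = -(5 / 4) * inner ℝ e db - 1000 * inner ℝ (b - e) db := by
    rw [inner_sub_left, inner_neg_left, real_inner_smul_left, real_inner_smul_left]; ring
  rw [L2, L3] at L1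
  -- the quadratic potentials
  have P1 : psi a' = psi a - 200 * inner ℝ a da - 100 * ‖da‖ ^ 2 := by
    unfold psi
    rw [ha', norm_add_sq_real]; ring
  have P2 : uV e b' = uV e b - 5 / 4 * inner ℝ e db - 1000 * inner ℝ (b - e) db
      - 500 * ‖db‖ ^ 2 := by
    unfold uV
    rw [hb', norm_add_sq_real, inner_add_right]; ring
  have Q : ‖da - db‖ ^ 2 ≤ 2 * ‖da‖ ^ 2 + 2 * ‖db‖ ^ 2 := by
    have := parallelogram_law_with_norm ℝ da db
    nlinarith [norm_nonneg (da + db)]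
  have qa : 0 ≤ ‖da‖ ^ 2 := by positivity
  have qb : 0 ≤ ‖db‖ ^ 2 := by positivity
  rw [P1, P2]
  unfold cR
  linarith

end Vale.Agent.Lib.P121
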