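import Vale.Agent.Lib.P121.Basic

/-!
# P121 task B2: transporting a measurable function along a measurable map injective on `U0`

`fun a : U0 => g a` is measurable and injective on the standard Borel space `U0`
(`measurableSet_U0.standardBorel`), hence a `MeasurableEmbedding`
(`Measurable.measurableEmbedding`).  Take `w = Function.extend (fun a : U0 => g a)
(fun a : U0 => h a) 0`; use `MeasurableEmbedding.measurable_extend` and
`Function.Injective.extend_apply`.
-/

namespace Vale.Agent.Lib.P121

theorem exists_pushed_fun (g : E3 → E3) (hg : Measurable g) (hinj : Set.InjOn g U0)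
    (h : E3 → ℝ) (hh : Measurable h) :
    ∃ w : E3 → ℝ, Measurable w ∧ ∀ a ∈ U0, w (g a) = h a := by
  have : StandardBorelSpace U0 := measurableSet_U0.standardBorel
  have hgm : Measurable (fun a : U0 => g a) := hg.comp measurable_subtype_coe
  have hgi : Function.Injective (fun a : U0 => g a) := by
    intro x y hxy
    exact Subtype.ext (hinj x.2 y.2 hxy)
  have hemb : MeasurableEmbedding (fun a : U0 => g a) := hgm.measurableEmbedding hgi
  refine ⟨Function.extend (fun a : U0 => g a) (fun a : U0 => h a) 0, ?_, ?_⟩
  · exact hemb.measurable_extend (hh.comp measurable_subtype_coe) measurable_const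
  · intro a ha
    exact hgi.extend_apply (fun a : U0 => h a) 0 ⟨a, ha⟩

end Vale.Agent.Lib.P121
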