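import Vale.Agent.Lib.P121.SolMaps
import Vale.Agent.Lib.P121.PushFun
import Vale.Agent.Lib.P121.LocalIneq

/-!
# P121 task B3: a branch = solution maps `β, γ` on `U0` + the third potential `w` on `γ '' U0`

* `exists_branch`: `exists_sol_maps`, injectivity of `γ` on `U0` from `sol_diff`, then
  `exists_pushed_fun` applied to `h a = cR a (β a) (γ a) - psi a - uV e (β a)` (measurable: norms,
  inverses, inner products of measurable maps).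
* `w_bounds`: by `config_range` `cR a (β a) (γ a) ∈ [2/1.002+1/2.002, 2/0.998+1/1.998]
  ⊆ [2.4955, 2.5046]`, `psi a ∈ [1.4999, 1.5]`,
  `|uV e (β a) - 1/2| ≤ (5/4) r0 + 500 r0^2 ≤ 0.0001` (Cauchy-Schwarz `abs_real_inner_le_norm`).
* `core`: write `z = γ a0`, `a0 ∈ U0`; the points `x, y, z` are pairwise distinct by `config_range`
  (norms of differences are `≥ 0.998`); `local_ineq` with `a' = x`, `b' = y` and `w_eq` give
  `w z + ‖x - a0‖^2 + ‖y - β a0‖^2 ≤ cR x y z - psi x - uV e y`.  Equality case: `‖x - a0‖ = 0`.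
-/

namespace Vale.Agent.Lib.P121

/-- solution maps and third potential for the axis `e`. -/
structure Branch (e : E3) where
  /-- the map to the blob at `e` -/
  β : E3 → E3
  /-- the map to the blob at `-e` -/
  γ : E3 → E3
  /-- the potential on the blob at `-e` -/
  w : E3 → ℝ
  β_meas : Measurable β
  γ_meas : Measurable γ
  w_meas : Measurable w
  sol : ∀ a ∈ U0, IsSol e a (β a) (γ a)
  w_eq : ∀ a ∈ U0, w (γ a) = cR a (β a) (γ a) - psi a - uV e (β a)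

theorem exists_branch (e : E3) (he : ‖e‖ = 1) : Nonempty (Branch e) := by
  obtain ⟨β, γ, hβ, hγ, hsol⟩ := exists_sol_maps e he
  have hinj : Set.InjOn γ U0 := by
    intro a ha a' ha' h
    have h1 := (sol_diff e a a' _ _ _ _ he (mem_U0.mp ha) (mem_U0.mp ha') (hsol a ha)
      (hsol a' ha')).2.2.1
    rw [h, sub_self, norm_zero] at h1
    exact sub_eq_zero.mp (norm_le_zero_iff.mp h1)
  have hh : Measurable (fun a => cR a (β a) (γ a) - psi a - uV e (β a)) := by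
    unfold cR psi uV
    fun_prop
  obtain ⟨w, hw, hweq⟩ := exists_pushed_fun γ hγ hinj _ hh
  exact ⟨⟨β, γ, w, hβ, hγ, hw, hsol, hweq⟩⟩

namespace Branch

variable {e : E3} (B : Branch e)

theorem β_near (a : E3) (ha : a ∈ U0) : ‖B.β a - e‖ ≤ eta :=
  (B.sol a ha).1.trans r0_le_eta

theorem γ_near (a : E3) (ha : a ∈ U0) : ‖B.γ a + e‖ ≤ eta :=
  (B.sol a ha).2.1

theorem γ_injOn (he : ‖e‖ = 1) : Set.InjOn B.γ U0 := by
  intro a ha a' ha' h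
  have h1 := (sol_diff e a a' _ _ _ _ he (mem_U0.mp ha) (mem_U0.mp ha') (B.sol a ha)
    (B.sol a' ha')).2.2.1
  rw [h, sub_self, norm_zero] at h1
  exact sub_eq_zero.mp (norm_le_zero_iff.mp h1)

theorem β_anti (he : ‖e‖ = 1) :
    ∀ a ∈ U0, ∀ a' ∈ U0, ‖a - a'‖ ≤ 400 * ‖B.β a - B.β a'‖ := by
  intro a ha a' ha'
  exact (sol_diff e a a' _ _ _ _ he (mem_U0.mp ha) (mem_U0.mp ha') (B.sol a ha)
    (B.sol a' ha')).2.2.2

theorem γ_anti (he : ‖e‖ = 1) :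
    ∀ a ∈ U0, ∀ a' ∈ U0, ‖a - a'‖ ≤ 1 * ‖B.γ a - B.γ a'‖ := by
  intro a ha a' ha'
  rw [one_mul]
  exact (sol_diff e a a' _ _ _ _ he (mem_U0.mp ha) (mem_U0.mp ha') (B.sol a ha)
    (B.sol a' ha')).2.2.1

theorem w_bounds (he : ‖e‖ = 1) (a : E3) (ha : a ∈ U0) :
    0.49 ≤ B.w (B.γ a) ∧ B.w (B.γ a) ≤ 0.51 := by
  have ha0 : ‖a‖ ≤ r0 := mem_U0.mp ha
  obtain ⟨hb, hc, -, -⟩ := B.sol a ha
  obtain ⟨⟨r1, r2⟩, ⟨r3, r4⟩, ⟨r5, r6⟩⟩ :=
    config_range e a (B.β a) (B.γ a) he (ha0.trans r0_le_eta) (hb.trans r0_le_eta) hc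
  rw [B.w_eq a ha]
  have inv_bd : ∀ t lo hi : ℝ, 0 < lo → lo ≤ t → t ≤ hi → hi⁻¹ ≤ t⁻¹ ∧ t⁻¹ ≤ lo⁻¹ := by
    intro t lo hi hlo h1 h2
    exact ⟨inv_anti₀ (hlo.trans_le h1) h2, inv_anti₀ hlo h1⟩
  obtain ⟨i1, i2⟩ := inv_bd _ 0.998 1.002 (by norm_num) r1 r2
  obtain ⟨i3, i4⟩ := inv_bd _ 0.998 1.002 (by norm_num) r3 r4
  obtain ⟨i5, i6⟩ := inv_bd _ 1.998 2.002 (by norm_num) r5 r6
  have j1 : (0.998 : ℝ) ≤ (1.002 : ℝ)⁻¹ := by norm_num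
  have j2 : (0.998 : ℝ)⁻¹ ≤ 1.0021 := by norm_num
  have j3 : (0.4995 : ℝ) ≤ (2.002 : ℝ)⁻¹ := by norm_num
  have j4 : (1.998 : ℝ)⁻¹ ≤ 0.5006 := by norm_num
  have hin : |inner ℝ e (B.β a - e)| ≤ r0 := by
    calc |inner ℝ e (B.β a - e)| ≤ ‖e‖ * ‖B.β a - e‖ := abs_real_inner_le_norm _ _
      _ = ‖B.β a - e‖ := by rw [he, one_mul]
      _ ≤ r0 := hb
  obtain ⟨k1, k2⟩ := abs_le.mp hin
  have sq1 : ‖a‖ ^ 2 ≤ r0 ^ 2 := pow_le_pow_left₀ (norm_nonneg _) ha0 2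
  have sq2 : ‖B.β a - e‖ ^ 2 ≤ r0 ^ 2 := pow_le_pow_left₀ (norm_nonneg _) hb 2
  have sq1' : 0 ≤ ‖a‖ ^ 2 := by positivity
  have sq2' : 0 ≤ ‖B.β a - e‖ ^ 2 := by positivity
  unfold cR psi uV
  unfold r0 at k1 k2 sq1 sq2
  norm_num at k1 k2 sq1 sq2
  constructor <;> linarith

theorem core (he : ‖e‖ = 1) (x y z : E3) (hx : x ∈ U0) (hy : ‖y - e‖ ≤ eta)
    (hz : z ∈ B.γ '' U0) :
    psi x + uV e y + B.w z ≤ cR x y z ∧ (cR x y z ≤ psi x + uV e y + B.w z → z = B.γ x) := by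
  obtain ⟨a0, ha0, rfl⟩ := hz
  have hx0 : ‖x‖ ≤ r0 := mem_U0.mp hx
  have hsol := B.sol a0 ha0
  obtain ⟨⟨r1, -⟩, ⟨r3, -⟩, ⟨r5, -⟩⟩ :=
    config_range e x y (B.γ a0) he (hx0.trans r0_le_eta) hy hsol.2.1
  have h1 : x ≠ y := by
    intro h; rw [h, sub_self, norm_zero] at r1; norm_num at r1
  have h2 : x ≠ B.γ a0 := by
    intro h; rw [← h, sub_self, norm_zero] at r3; norm_num at r3
  have h3 : y ≠ B.γ a0 := by
    intro h; rw [← h, sub_self, norm_zero] at r5; norm_num at r5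
  have key := local_ineq e a0 (B.β a0) (B.γ a0) he (mem_U0.mp ha0) hsol x y h1 h2 h3
  rw [← B.w_eq a0 ha0] at key
  have s1 : 0 ≤ ‖x - a0‖ ^ 2 := by positivity
  have s2 : 0 ≤ ‖y - B.β a0‖ ^ 2 := by positivity
  refine ⟨by linarith, ?_⟩
  intro hle
  have s3 : ‖x - a0‖ ^ 2 ≤ 0 := by linarith
  have s4 : ‖x - a0‖ = 0 := by
    have := le_antisymm s3 s1
    exact pow_eq_zero_iff (two_ne_zero) |>.mp this
  have s5 : x = a0 := sub_eq_zero.mp (norm_eq_zero.mp s4)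
  rw [s5]

end Branch

end Vale.Agent.Lib.P121
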