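import Vale.Agent.Lib.P121.Basic

/-!
# P121 task F3: `Ef` is expanding (lower Lipschitz bound) on `{d ≤ ‖v‖ ≤ D}`, and `Einv` inverts it

Sketch for `Ef_antilip`.  Put `p = Ef v`, `q = Ef w`; then `v = -‖v‖^3 • p`, `w = -‖w‖^3 • q`,
`‖p‖ = 1/‖v‖^2`, `‖q‖ = 1/‖w‖^2`.  So
`v - w = -‖v‖^3 • (p - q) - (‖v‖^3 - ‖w‖^3) • q` and
`‖v - w‖ ≤ ‖v‖^3 ‖p-q‖ + |‖v‖^3-‖w‖^3| / ‖w‖^2`.  Further
`|‖v‖^3-‖w‖^3| = |‖v‖-‖w‖| (‖v‖^2+‖v‖‖w‖+‖w‖^2)` and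
`‖p‖-‖q‖ = (‖w‖-‖v‖)(‖w‖+‖v‖)/(‖v‖^2‖w‖^2)`, i.e.
`|‖v‖-‖w‖| = |‖p‖-‖q‖| ‖v‖^2‖w‖^2/(‖v‖+‖w‖) ≤ ‖p-q‖ ‖v‖^2‖w‖^2/(2d)`.
Total: `‖v-w‖ ≤ (D^3 + 3 D^4/(2d)) ‖p-q‖`.
-/

namespace Vale.Agent.Lib.P121

private theorem norm_Ef_aux (v : E3) (hv : v ≠ 0) : ‖Ef v‖ = (‖v‖ ^ 2)⁻¹ := by
  have h : 0 < ‖v‖ := norm_pos_iff.mpr hv
  unfold Ef
  rw [norm_neg, norm_smul, norm_inv, norm_pow, norm_norm]
  field_simp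

theorem Ef_antilip (d D : ℝ) (hd : 0 < d) (v w : E3) (hv : d ≤ ‖v‖) (hw : d ≤ ‖w‖)
    (hv' : ‖v‖ ≤ D) (hw' : ‖w‖ ≤ D) :
    ‖v - w‖ ≤ (D ^ 3 + 3 * D ^ 4 / (2 * d)) * ‖Ef v - Ef w‖ := by
  have h : 0 < ‖v‖ := lt_of_lt_of_le hd hv
  have h' : 0 < ‖w‖ := lt_of_lt_of_le hd hw
  have hv0 : v ≠ 0 := norm_pos_iff.mp h
  have hw0 : w ≠ 0 := norm_pos_iff.mp h'
  have hD : 0 < D := lt_of_lt_of_le h hv'
  have hP : |(‖v‖ ^ 2)⁻¹ - (‖w‖ ^ 2)⁻¹| ≤ ‖Ef v - Ef w‖ := by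
    rw [← norm_Ef_aux v hv0, ← norm_Ef_aux w hw0]; exact abs_norm_sub_norm_le _ _
  have ev : v = -(‖v‖ ^ 3 • Ef v) := by
    unfold Ef
    rw [smul_neg, neg_neg, smul_smul, mul_inv_cancel₀ (by positivity), one_smul]
  have ew : w = -(‖w‖ ^ 3 • Ef w) := by
    unfold Ef
    rw [smul_neg, neg_neg, smul_smul, mul_inv_cancel₀ (by positivity), one_smul]
  have e : v - w = -(‖v‖ ^ 3 • (Ef v - Ef w)) - (‖v‖ ^ 3 - ‖w‖ ^ 3) • Ef w := by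
    conv_lhs => rw [ev, ew]
    rw [smul_sub, sub_smul]
    abel
  have hq := norm_Ef_aux w hw0
  set P := ‖Ef v - Ef w‖ with hPdef
  set a := ‖v‖ with ha
  set b := ‖w‖ with hb
  have hP0 : 0 ≤ P := norm_nonneg _
  have n1 : ‖v - w‖ ≤ a ^ 3 * P + |a ^ 3 - b ^ 3| * (b ^ 2)⁻¹ := by
    rw [e]
    refine (norm_sub_le _ _).trans ?_
    rw [norm_neg, norm_smul, norm_smul, hq, Real.norm_eq_abs, Real.norm_eq_abs,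
      abs_of_pos (by positivity : 0 < a ^ 3)]
  have h1 : |a - b| * (a + b) ≤ P * (a ^ 2 * b ^ 2) := by
    have e2 : (a ^ 2)⁻¹ - (b ^ 2)⁻¹ = (b - a) * (a + b) / (a ^ 2 * b ^ 2) := by
      field_simp; ring
    rw [e2, abs_div, abs_mul, abs_of_pos (by positivity : 0 < a + b),
      abs_of_pos (by positivity : 0 < a ^ 2 * b ^ 2), div_le_iff₀ (by positivity),
      abs_sub_comm] at hP
    exact hP
  have h2 : |a ^ 3 - b ^ 3| = |a - b| * (a ^ 2 + a * b + b ^ 2) := by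
    have : a ^ 3 - b ^ 3 = (a - b) * (a ^ 2 + a * b + b ^ 2) := by ring
    rw [this, abs_mul, abs_of_pos (by positivity : 0 < a ^ 2 + a * b + b ^ 2)]
  have h3 : |a - b| ≤ P * (a ^ 2 * b ^ 2) / (a + b) := by
    rw [le_div_iff₀ (by positivity)]; exact h1
  have n2 : |a ^ 3 - b ^ 3| * (b ^ 2)⁻¹ ≤ 3 * D ^ 4 / (2 * d) * P := by
    rw [h2]
    calc |a - b| * (a ^ 2 + a * b + b ^ 2) * (b ^ 2)⁻¹
        ≤ P * (a ^ 2 * b ^ 2) / (a + b) * (a ^ 2 + a * b + b ^ 2) * (b ^ 2)⁻¹ := by gcongr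
      _ = P * (a ^ 2 * (a ^ 2 + a * b + b ^ 2)) / (a + b) := by field_simp
      _ ≤ P * (D ^ 2 * (D ^ 2 + D * D + D ^ 2)) / (d + d) := by gcongr
      _ = 3 * D ^ 4 / (2 * d) * P := by field_simp; ring
  have n3 : a ^ 3 * P ≤ D ^ 3 * P := by gcongr
  calc ‖v - w‖ ≤ a ^ 3 * P + |a ^ 3 - b ^ 3| * (b ^ 2)⁻¹ := n1
    _ ≤ D ^ 3 * P + 3 * D ^ 4 / (2 * d) * P := add_le_add n3 n2
    _ = (D ^ 3 + 3 * D ^ 4 / (2 * d)) * P := by ring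

theorem norm_Einv (w : E3) (hw : w ≠ 0) : ‖Einv w‖ = (Real.sqrt ‖w‖)⁻¹ := by
  have h : 0 < ‖w‖ := norm_pos_iff.mpr hw
  have hs : 0 < Real.sqrt ‖w‖ := Real.sqrt_pos.mpr h
  have hsq : Real.sqrt ‖w‖ * Real.sqrt ‖w‖ = ‖w‖ := Real.mul_self_sqrt h.le
  unfold Einv
  rw [norm_neg, norm_smul, norm_inv, Real.norm_eq_abs, abs_of_pos (mul_pos h hs)]
  field_simp

theorem Ef_Einv (w : E3) (hw : w ≠ 0) : Ef (Einv w) = w := by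
  have h : 0 < ‖w‖ := norm_pos_iff.mpr hw
  have hs : 0 < Real.sqrt ‖w‖ := Real.sqrt_pos.mpr h
  have hsq : Real.sqrt ‖w‖ * Real.sqrt ‖w‖ = ‖w‖ := Real.mul_self_sqrt h.le
  have hn := norm_Einv w hw
  unfold Ef
  rw [hn]
  unfold Einv
  rw [smul_neg, neg_neg, smul_smul]
  have : (((Real.sqrt ‖w‖)⁻¹) ^ 3)⁻¹ * (‖w‖ * Real.sqrt ‖w‖)⁻¹ = 1 := by
    generalize Real.sqrt ‖w‖ = s at hs hsq
    rw [← hsq]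
    field_simp
  rw [this, one_smul]

theorem Einv_neg_unit (e : E3) (he : ‖e‖ = 1) : Einv (-e) = e := by
  unfold Einv
  rw [norm_neg, he]
  simp

end Vale.Agent.Lib.P121
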