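import Vale.Agent.Lib.P121.FieldLip
import Vale.Agent.Lib.P121.FieldAnti

/-!
# P121 task S3: two solutions of the system: bi-Lipschitz dependence on `a`

Let `A = ‖a-a'‖`, `B = ‖b-b'‖`, `C = ‖c-c'‖`.  All of `a-b, a-c, ...` have norm in `[0.998,1.002]`,
`b-c` in `[1.998,2.002]` (`config_range`, `r0_le_eta`).  Constants: `M1 = 2.02 ≥ 2/0.998^3`,
`M3 = 0.26 ≥ 2/1.998^3`, `C1 = 2.6 ≥ 1.002^3+3*1.002^4/(2*0.998)`,
`C2 = 20.2 ≥ 2.002^3+3*2.002^4/(2*1.998)`.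
Subtract (E1) for the two solutions:
`Ef(a-c) - Ef(a'-c') = -200 (a-a') - (Ef(a-b) - Ef(a'-b'))`.  Hence
 (U1) `C ≤ A + ‖(a-c)-(a'-c')‖ ≤ A + C1 (200 A + M1 (A+B))`      (`Ef_antilip`, `Ef_lip`)
 (L1) `200 A ≤ M1 (A + C) + M1 (A + B)`                           (`Ef_lip` twice)
Subtract (E2): `1000 (b-b') = -(Ef(b-a)-Ef(b'-a')) - (Ef(b-c)-Ef(b'-c'))`.  Hence
 (U2) `1000 B ≤ M1 (A+B) + M3 (B+C)`
 (L2) `C - B ≤ ‖(b-c)-(b'-c')‖ ≤ C2 (1000 B + M1 (A+B))`.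
These four linear inequalities give (linarith) `B ≤ 0.14 A`, `C ≤ 528 A`, `96 A ≤ C`, `A ≤ 361 B`.
-/

namespace Vale.Agent.Lib.P121

/-- triangle inequality for differences of differences. -/
theorem norm_dd_le (x y x' y' : E3) : ‖(x - y) - (x' - y')‖ ≤ ‖x - x'‖ + ‖y - y'‖ := by
  have : (x - y) - (x' - y') = (x - x') - (y - y') := by abel
  rw [this]
  exact norm_sub_le _ _

/-- reverse triangle inequality for differences of differences. -/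
theorem norm_dd_ge (x y x' y' : E3) : ‖y - y'‖ ≤ ‖x - x'‖ + ‖(x - y) - (x' - y')‖ := by
  have : y - y' = (x - x') - ((x - y) - (x' - y')) := by abel
  rw [this]
  exact norm_sub_le _ _

theorem sol_diff (e a a' b b' c c' : E3) (he : ‖e‖ = 1) (ha : ‖a‖ ≤ r0) (ha' : ‖a'‖ ≤ r0)
    (h : IsSol e a b c) (h' : IsSol e a' b' c') :
    ‖b - b'‖ ≤ ‖a - a'‖ ∧ ‖c - c'‖ ≤ 600 * ‖a - a'‖ ∧ ‖a - a'‖ ≤ ‖c - c'‖ ∧
      ‖a - a'‖ ≤ 400 * ‖b - b'‖ := by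
  obtain ⟨hb, hc, E1, E2⟩ := h
  obtain ⟨hb', hc', E1', E2'⟩ := h'
  obtain ⟨⟨r1, r2⟩, ⟨r3, r4⟩, ⟨r5, r6⟩⟩ :=
    config_range e a b c he (ha.trans r0_le_eta) (hb.trans r0_le_eta) hc
  obtain ⟨⟨s1, s2⟩, ⟨s3, s4⟩, ⟨s5, s6⟩⟩ :=
    config_range e a' b' c' he (ha'.trans r0_le_eta) (hb'.trans r0_le_eta) hc'
  have r1' : (0.998 : ℝ) ≤ ‖b - a‖ := by rw [norm_sub_rev]; exact r1
  have s1' : (0.998 : ℝ) ≤ ‖b' - a'‖ := by rw [norm_sub_rev]; exact s1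
  -- Lipschitz bounds
  have k1 : (2 : ℝ) / 0.998 ^ 3 ≤ 2.02 := by norm_num
  have k3 : (2 : ℝ) / 1.998 ^ 3 ≤ 0.26 := by norm_num
  have k4 : (1.002 : ℝ) ^ 3 + 3 * 1.002 ^ 4 / (2 * 0.998) ≤ 2.6 := by norm_num
  have k5 : (2.002 : ℝ) ^ 3 + 3 * 2.002 ^ 4 / (2 * 1.998) ≤ 20.2 := by norm_num
  have l1 : ‖Ef (a - b) - Ef (a' - b')‖ ≤ 2.02 * (‖a - a'‖ + ‖b - b'‖) :=
    calc ‖Ef (a - b) - Ef (a' - b')‖ ≤ 2 / 0.998 ^ 3 * ‖(a - b) - (a' - b')‖ :=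
          Ef_lip 0.998 (by norm_num) _ _ r1 s1
      _ ≤ 2.02 * (‖a - a'‖ + ‖b - b'‖) :=
          mul_le_mul k1 (norm_dd_le _ _ _ _) (norm_nonneg _) (by norm_num)
  have l2 : ‖Ef (a - c) - Ef (a' - c')‖ ≤ 2.02 * (‖a - a'‖ + ‖c - c'‖) :=
    calc ‖Ef (a - c) - Ef (a' - c')‖ ≤ 2 / 0.998 ^ 3 * ‖(a - c) - (a' - c')‖ :=
          Ef_lip 0.998 (by norm_num) _ _ r3 s3
      _ ≤ 2.02 * (‖a - a'‖ + ‖c - c'‖) :=
          mul_le_mul k1 (norm_dd_le _ _ _ _) (norm_nonneg _) (by norm_num)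
  have l3 : ‖Ef (b - a) - Ef (b' - a')‖ ≤ 2.02 * (‖b - b'‖ + ‖a - a'‖) :=
    calc ‖Ef (b - a) - Ef (b' - a')‖ ≤ 2 / 0.998 ^ 3 * ‖(b - a) - (b' - a')‖ :=
          Ef_lip 0.998 (by norm_num) _ _ r1' s1'
      _ ≤ 2.02 * (‖b - b'‖ + ‖a - a'‖) :=
          mul_le_mul k1 (norm_dd_le _ _ _ _) (norm_nonneg _) (by norm_num)
  have l4 : ‖Ef (b - c) - Ef (b' - c')‖ ≤ 0.26 * (‖b - b'‖ + ‖c - c'‖) :=
    calc ‖Ef (b - c) - Ef (b' - c')‖ ≤ 2 / 1.998 ^ 3 * ‖(b - c) - (b' - c')‖ :=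
          Ef_lip 1.998 (by norm_num) _ _ r5 s5
      _ ≤ 0.26 * (‖b - b'‖ + ‖c - c'‖) :=
          mul_le_mul k3 (norm_dd_le _ _ _ _) (norm_nonneg _) (by norm_num)
  -- anti-Lipschitz bounds
  have a1 : ‖(a - c) - (a' - c')‖ ≤ 2.6 * ‖Ef (a - c) - Ef (a' - c')‖ :=
    calc ‖(a - c) - (a' - c')‖
        ≤ ((1.002 : ℝ) ^ 3 + 3 * 1.002 ^ 4 / (2 * 0.998)) * ‖Ef (a - c) - Ef (a' - c')‖ :=
          Ef_antilip 0.998 1.002 (by norm_num) _ _ r3 s3 r4 s4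
      _ ≤ 2.6 * ‖Ef (a - c) - Ef (a' - c')‖ :=
          mul_le_mul_of_nonneg_right k4 (norm_nonneg _)
  have a2 : ‖(b - c) - (b' - c')‖ ≤ 20.2 * ‖Ef (b - c) - Ef (b' - c')‖ :=
    calc ‖(b - c) - (b' - c')‖
        ≤ ((2.002 : ℝ) ^ 3 + 3 * 2.002 ^ 4 / (2 * 1.998)) * ‖Ef (b - c) - Ef (b' - c')‖ :=
          Ef_antilip 1.998 2.002 (by norm_num) _ _ r5 s5 r6 s6
      _ ≤ 20.2 * ‖Ef (b - c) - Ef (b' - c')‖ :=
          mul_le_mul_of_nonneg_right k5 (norm_nonneg _)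
  -- differences of the equations
  have d1 : Ef (a - c) - Ef (a' - c') = -((200 : ℝ) • (a - a')) - (Ef (a - b) - Ef (a' - b')) := by
    have e1 : Ef (a - c) = -((200 : ℝ) • a) - Ef (a - b) := by rw [← E1]; abel
    have e2 : Ef (a' - c') = -((200 : ℝ) • a') - Ef (a' - b') := by rw [← E1']; abel
    rw [e1, e2, smul_sub]; abel
  have d2 : (1000 : ℝ) • (b - b') =
      -(Ef (b - a) - Ef (b' - a')) - (Ef (b - c) - Ef (b' - c')) := by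
    have e1 : (1000 : ℝ) • (b - e) = -((5 / 4 : ℝ) • e) - (Ef (b - a) + Ef (b - c)) := by
      rw [E2]; abel
    have e2 : (1000 : ℝ) • (b' - e) = -((5 / 4 : ℝ) • e) - (Ef (b' - a') + Ef (b' - c')) := by
      rw [E2']; abel
    have e3 : (1000 : ℝ) • (b - b') = (1000 : ℝ) • (b - e) - (1000 : ℝ) • (b' - e) := by
      rw [← smul_sub]; congr 1; abel
    rw [e3, e1, e2]; abel
  have n200 : ‖(200 : ℝ) • (a - a')‖ = 200 * ‖a - a'‖ := by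
    rw [norm_smul]; norm_num
  have n1000 : ‖(1000 : ℝ) • (b - b')‖ = 1000 * ‖b - b'‖ := by
    rw [norm_smul]; norm_num
  have u1 : ‖Ef (a - c) - Ef (a' - c')‖ ≤ 200 * ‖a - a'‖ + ‖Ef (a - b) - Ef (a' - b')‖ := by
    rw [d1, ← n200]
    calc ‖-((200 : ℝ) • (a - a')) - (Ef (a - b) - Ef (a' - b'))‖
        ≤ ‖-((200 : ℝ) • (a - a'))‖ + ‖Ef (a - b) - Ef (a' - b')‖ := norm_sub_le _ _
      _ = _ := by rw [norm_neg]
  have u2 : 200 * ‖a - a'‖ ≤ ‖Ef (a - c) - Ef (a' - c')‖ + ‖Ef (a - b) - Ef (a' - b')‖ := by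
    have : (200 : ℝ) • (a - a') =
        -(Ef (a - c) - Ef (a' - c')) - (Ef (a - b) - Ef (a' - b')) := by
      rw [d1]; abel
    rw [← n200, this]
    calc ‖-(Ef (a - c) - Ef (a' - c')) - (Ef (a - b) - Ef (a' - b'))‖
        ≤ ‖-(Ef (a - c) - Ef (a' - c'))‖ + ‖Ef (a - b) - Ef (a' - b')‖ := norm_sub_le _ _
      _ = _ := by rw [norm_neg]
  have u3 : 1000 * ‖b - b'‖ ≤ ‖Ef (b - a) - Ef (b' - a')‖ + ‖Ef (b - c) - Ef (b' - c')‖ := by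
    rw [← n1000, d2]
    calc ‖-(Ef (b - a) - Ef (b' - a')) - (Ef (b - c) - Ef (b' - c'))‖
        ≤ ‖-(Ef (b - a) - Ef (b' - a'))‖ + ‖Ef (b - c) - Ef (b' - c')‖ := norm_sub_le _ _
      _ = _ := by rw [norm_neg]
  have u4 : ‖Ef (b - c) - Ef (b' - c')‖ ≤ 1000 * ‖b - b'‖ + ‖Ef (b - a) - Ef (b' - a')‖ := by
    have : Ef (b - c) - Ef (b' - c') =
        -((1000 : ℝ) • (b - b')) - (Ef (b - a) - Ef (b' - a')) := by
      rw [d2]; abel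
    rw [this, ← n1000]
    calc ‖-((1000 : ℝ) • (b - b')) - (Ef (b - a) - Ef (b' - a'))‖
        ≤ ‖-((1000 : ℝ) • (b - b'))‖ + ‖Ef (b - a) - Ef (b' - a')‖ := norm_sub_le _ _
      _ = _ := by rw [norm_neg]
  have g1 : ‖c - c'‖ ≤ ‖a - a'‖ + ‖(a - c) - (a' - c')‖ := norm_dd_ge _ _ _ _
  have g2 : ‖c - c'‖ ≤ ‖b - b'‖ + ‖(b - c) - (b' - c')‖ := norm_dd_ge _ _ _ _
  have pA := norm_nonneg (a - a')
  have pB := norm_nonneg (b - b')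
  have pC := norm_nonneg (c - c')
  generalize ‖a - a'‖ = A at *
  generalize ‖b - b'‖ = B at *
  generalize ‖c - c'‖ = C at *
  generalize ‖Ef (a - b) - Ef (a' - b')‖ = X1 at *
  generalize ‖Ef (a - c) - Ef (a' - c')‖ = X2 at *
  generalize ‖Ef (b - a) - Ef (b' - a')‖ = X3 at *
  generalize ‖Ef (b - c) - Ef (b' - c')‖ = X4 at *
  generalize ‖(a - c) - (a' - c')‖ = Y1 at *
  generalize ‖(b - c) - (b' - c')‖ = Y2 at *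
  refine ⟨?_, ?_, ?_, ?_⟩ <;> linarith

end Vale.Agent.Lib.P121
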