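import Vale.Agent.Lib.P121.SysExist
import Vale.Agent.Lib.P121.SysDiff

/-!
# P121: packaging of a branch: measurable maps `β, γ` solving the system on `U0`
-/

namespace Vale.Agent.Lib.P121

open MeasureTheory

/-- A function which is Lipschitz on `U0` (in the norm form) and constant outside is measurable. -/
theorem measurable_of_lip_on_U0 (f : E3 → E3) (p : E3) (C : ℝ)
    (hl : ∀ a ∈ U0, ∀ a' ∈ U0, ‖f a - f a'‖ ≤ C * ‖a - a'‖) (ho : ∀ a, a ∉ U0 → f a = p) :
    Measurable f := by
  classical
  have hc : ContinuousOn f U0 := by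
    have : LipschitzOnWith C.toNNReal f U0 := by
      apply LipschitzOnWith.of_dist_le_mul
      intro x hx y hy
      rw [dist_eq_norm, dist_eq_norm]
      exact (hl x hx y hy).trans
        (mul_le_mul_of_nonneg_right (Real.le_coe_toNNReal C) (norm_nonneg _))
    exact this.continuousOn
  have h1 : f = U0.piecewise f (fun _ => p) := by
    funext a
    by_cases ha : a ∈ U0
    · simp [Set.piecewise, ha]
    · simp [Set.piecewise, ha, ho a ha]
  rw [h1]
  exact hc.measurable_piecewise continuousOn_const measurableSet_U0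

/-- Measurable solution maps of the system on `U0`. -/
theorem exists_sol_maps_pre (e : E3) (he : ‖e‖ = 1) :
    ∃ β γ : E3 → E3, Measurable β ∧ Measurable γ ∧ (∀ a ∈ U0, IsSol e a (β a) (γ a)) := by
  classical
  have hex : ∀ a : E3, ∃ bc : E3 × E3, a ∈ U0 → IsSol e a bc.1 bc.2 := by
    intro a
    by_cases ha : a ∈ U0
    · obtain ⟨b, c, h⟩ := exists_sol e a he (mem_U0.1 ha)
      exact ⟨(b, c), fun _ => h⟩
    · exact ⟨(0, 0), fun h => absurd h ha⟩
  choose F hF using hex
  refine ⟨fun a => if a ∈ U0 then (F a).1 else e, fun a => if a ∈ U0 then (F a).2 else e,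
    ?_, ?_, ?_⟩
  · apply measurable_of_lip_on_U0 _ e 1
    · intro a ha a' ha'
      simp only [ha, ha', if_true]
      have := (sol_diff e a a' _ _ _ _ he (mem_U0.1 ha) (mem_U0.1 ha') (hF a ha) (hF a' ha')).1
      linarith
    · intro a ha
      simp [ha]
  · apply measurable_of_lip_on_U0 _ e 600
    · intro a ha a' ha'
      simp only [ha, ha', if_true]
      exact (sol_diff e a a' _ _ _ _ he (mem_U0.1 ha) (mem_U0.1 ha') (hF a ha) (hF a' ha')).2.1
    · intro a ha
      simp [ha]
  · intro a ha
    simp only [ha, if_true]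
    exact hF a ha

end Vale.Agent.Lib.P121
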