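import Vale.Agent.Lib.P121.Mix

/-!
# P121 task A3: a Monge pair of cost at most `3 ∫ U` touches the potential almost everywhere

`μ`-a.e. `x ∈ S`, `T2 x ∈ S`, `T3 x ∈ S` (as `μ (T_j ⁻¹' Sᶜ) = (μ.map T_j) Sᶜ = μ Sᶜ = 0`).  So
`f x := U x + U (T2 x) + U (T3 x) ≤ g x := coulomb x (T2 x) (T3 x)` a.e. by `H1`;
`∫⁻ f = 3 ∫⁻ U ∂μ` (`lintegral_add_left`, `lintegral_map`, `h2`, `h3`), which is `≤ 6 < ⊤`.
Now `ae_eq_of_ae_le_of_lintegral_le` gives `f = g` a.e.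
-/

namespace Vale.Agent.Lib.P121

open MeasureTheory
open scoped ENNReal

theorem monge_contact (μ : Measure E3) [IsProbabilityMeasure μ] (S : Set E3)
    (hS : MeasurableSet S) (hμS : μ Sᶜ = 0)
    (U : E3 → ℝ≥0∞) (hU : Measurable U) (hUb : ∀ x, U x ≤ 2)
    (H1 : ∀ x ∈ S, ∀ y ∈ S, ∀ z ∈ S, U x + U y + U z ≤ coulomb x y z)
    (T2 T3 : E3 → E3) (hT2 : Measurable T2) (hT3 : Measurable T3)
    (h2 : μ.map T2 = μ) (h3 : μ.map T3 = μ)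
    (hcost : ∫⁻ x, coulomb x (T2 x) (T3 x) ∂μ ≤ 3 * ∫⁻ x, U x ∂μ) :
    ∀ᵐ x ∂μ, T2 x ∈ S ∧ T3 x ∈ S ∧ coulomb x (T2 x) (T3 x) ≤ U x + U (T2 x) + U (T3 x) := by
  have aS : ∀ᵐ x ∂μ, x ∈ S := by
    rw [ae_iff]; exact hμS
  have aT : ∀ T : E3 → E3, Measurable T → μ.map T = μ → ∀ᵐ x ∂μ, T x ∈ S := by
    intro T hT h
    rw [ae_iff]
    have : {x | ¬ T x ∈ S} = T ⁻¹' Sᶜ := rfl
    rw [this, ← Measure.map_apply hT hS.compl, h]
    exact hμS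
  have a2 := aT T2 hT2 h2
  have a3 := aT T3 hT3 h3
  have hle : (fun x => U x + U (T2 x) + U (T3 x)) ≤ᵐ[μ] fun x => coulomb x (T2 x) (T3 x) := by
    filter_upwards [aS, a2, a3] with x hx hx2 hx3
    exact H1 x hx _ hx2 _ hx3
  have iT : ∀ T : E3 → E3, Measurable T → μ.map T = μ → ∫⁻ x, U (T x) ∂μ = ∫⁻ x, U x ∂μ := by
    intro T hT h
    rw [← lintegral_map hU hT, h]
  have hint : ∫⁻ x, (U x + U (T2 x) + U (T3 x)) ∂μ = 3 * ∫⁻ x, U x ∂μ := by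
    have m1 : Measurable (fun x => U x + U (T2 x)) := hU.add (hU.comp hT2)
    rw [lintegral_add_left m1 (fun x => U (T3 x)), lintegral_add_left hU (fun x => U (T2 x)),
      iT T2 hT2 h2, iT T3 hT3 h3]
    ring
  have hfin : ∫⁻ x, U x ∂μ ≤ 2 := by
    calc ∫⁻ x, U x ∂μ ≤ ∫⁻ _x, 2 ∂μ := lintegral_mono hUb
      _ = 2 := by simp
  have hfin' : ∫⁻ x, (U x + U (T2 x) + U (T3 x)) ∂μ ≠ ⊤ := by
    rw [hint]
    refine ENNReal.mul_ne_top (by norm_num) ?_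
    exact ne_top_of_le_ne_top (by norm_num) hfin
  have hg : AEMeasurable (fun x => coulomb x (T2 x) (T3 x)) μ := by
    have : Measurable (fun x : E3 => (x, T2 x, T3 x)) :=
      measurable_id.prodMk (hT2.prodMk hT3)
    exact (measurable_coulomb.comp this).aemeasurable
  have heq := ae_eq_of_ae_le_of_lintegral_le hle hfin' hg (by rw [hint]; exact hcost)
  filter_upwards [a2, a3, heq] with x hx2 hx3 hx
  exact ⟨hx2, hx3, hx.ge⟩

end Vale.Agent.Lib.P121
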