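import Vale.Agent.Lib.P121.RealIneq

/-!
# P121 task G4: conversion to `ℝ≥0∞`, and the set theoretic hypotheses of the abstract theorem

`coulomb_of_ne`: `dist = ‖. - .‖ > 0`, `ENNReal.ofReal_inv_of_pos`, `ENNReal.ofReal_add`.
`coulomb_eq_top`: `dist x x = 0`, `ENNReal.ofReal_zero`, `ENNReal.inv_zero`, `top_add`/`add_top`.
`H1`: if two of the points coincide the right side is `⊤`; otherwise both sides are `ofReal` of the
real quantities (`upot_nonneg`, `ENNReal.ofReal_add`), use `ENNReal.ofReal_le_ofReal` and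
`real_ineq`.  `H3`: the right side is `< ⊤`, so the points are pairwise distinct; then
`ENNReal.ofReal_le_ofReal_iff` and `real_contact`.  `H2a/b`: the three points are pairwise distinct
(`pair_ne` with `region_near`), `real_eq1/2`.
`hd1/hd2`: `pair_ne` with `region_near` (kinds `W1` vs `O, V1, V2, W2`).
-/

namespace Vale.Agent.Lib.P121

open scoped ENNReal

theorem ofReal_dist_inv (x y : E3) (hxy : x ≠ y) :
    (ENNReal.ofReal (dist x y))⁻¹ = ENNReal.ofReal ‖x - y‖⁻¹ := by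
  rw [dist_eq_norm, ENNReal.ofReal_inv_of_pos (norm_pos_iff.2 (sub_ne_zero.2 hxy))]

theorem coulomb_of_ne (x y z : E3) (hxy : x ≠ y) (hxz : x ≠ z) (hyz : y ≠ z) :
    coulomb x y z = ENNReal.ofReal (cR x y z) := by
  unfold coulomb cR
  rw [ofReal_dist_inv x y hxy, ofReal_dist_inv x z hxz, ofReal_dist_inv y z hyz,
    ENNReal.ofReal_add (by positivity) (by positivity),
    ENNReal.ofReal_add (by positivity) (by positivity)]

theorem coulomb_eq_top (x y z : E3) (h : x = y ∨ x = z ∨ y = z) : coulomb x y z = ⊤ := by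
  unfold coulomb
  rcases h with rfl | rfl | rfl <;> simp

variable {e1 e2 : E3} (B1 : Branch e1) (B2 : Branch e2)

/-- the potential with values in `ℝ≥0∞`. -/
noncomputable def Upot (x : E3) : ℝ≥0∞ := ENNReal.ofReal (upot B1 B2 x)

theorem measurable_Upot (he1 : ‖e1‖ = 1) (he2 : ‖e2‖ = 1) : Measurable (Upot B1 B2) :=
  (measurable_upot B1 B2 he1 he2).ennreal_ofReal

theorem Upot_le_two (he1 : ‖e1‖ = 1) (he2 : ‖e2‖ = 1) (h12 : inner ℝ e1 e2 = 0) (x : E3) :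
    Upot B1 B2 x ≤ 2 := by
  unfold Upot
  calc ENNReal.ofReal (upot B1 B2 x) ≤ ENNReal.ofReal 2 :=
        ENNReal.ofReal_le_ofReal (upot_le_two B1 B2 he1 he2 h12 x)
    _ = 2 := by simp

theorem mem_Sset_of_region (i : Kind) (x : E3) (hx : x ∈ region B1 B2 i) : x ∈ Sset B1 B2 :=
  Set.mem_iUnion.2 ⟨i, hx⟩

theorem β1_mem_region (a : E3) (ha : a ∈ U0) : B1.β a ∈ region B1 B2 .V1 :=
  mem_closedBall_iff_norm.2 (B1.β_near a ha)

theorem β2_mem_region (a : E3) (ha : a ∈ U0) : B2.β a ∈ region B1 B2 .V2 :=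
  mem_closedBall_iff_norm.2 (B2.β_near a ha)

theorem γ1_mem_region (a : E3) (ha : a ∈ U0) : B1.γ a ∈ region B1 B2 .W1 :=
  Set.mem_image_of_mem _ ha

theorem γ2_mem_region (a : E3) (ha : a ∈ U0) : B2.γ a ∈ region B1 B2 .W2 :=
  Set.mem_image_of_mem _ ha

theorem U0_subset_Sset : U0 ⊆ Sset B1 B2 :=
  fun x hx => mem_Sset_of_region B1 B2 .O x hx

theorem β1_mem_Sset : ∀ a ∈ U0, B1.β a ∈ Sset B1 B2 :=
  fun a ha => mem_Sset_of_region B1 B2 .V1 _ (β1_mem_region B1 B2 a ha)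

theorem γ1_mem_Sset : ∀ a ∈ U0, B1.γ a ∈ Sset B1 B2 :=
  fun a ha => mem_Sset_of_region B1 B2 .W1 _ (γ1_mem_region B1 B2 a ha)

theorem β2_mem_Sset : ∀ a ∈ U0, B2.β a ∈ Sset B1 B2 :=
  fun a ha => mem_Sset_of_region B1 B2 .V2 _ (β2_mem_region B1 B2 a ha)

theorem γ2_mem_Sset : ∀ a ∈ U0, B2.γ a ∈ Sset B1 B2 :=
  fun a ha => mem_Sset_of_region B1 B2 .W2 _ (γ2_mem_region B1 B2 a ha)

theorem Upot_add (he1 : ‖e1‖ = 1) (he2 : ‖e2‖ = 1) (x y z : E3) :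
    Upot B1 B2 x + Upot B1 B2 y + Upot B1 B2 z =
      ENNReal.ofReal (upot B1 B2 x + upot B1 B2 y + upot B1 B2 z) := by
  have hx := upot_nonneg B1 B2 he1 he2 x
  have hy := upot_nonneg B1 B2 he1 he2 y
  have hz := upot_nonneg B1 B2 he1 he2 z
  unfold Upot
  rw [ENNReal.ofReal_add (add_nonneg hx hy) hz, ENNReal.ofReal_add hx hy]

theorem region_ne (he1 : ‖e1‖ = 1) (he2 : ‖e2‖ = 1) (h12 : inner ℝ e1 e2 = 0) (i j : Kind)
    (hij : i ≠ j) (x y : E3) (hx : x ∈ region B1 B2 i) (hy : y ∈ region B1 B2 j) : x ≠ y :=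
  pair_ne he1 he2 h12 i j hij x y (region_near B1 B2 i x hx) (region_near B1 B2 j y hy)

theorem H1 (he1 : ‖e1‖ = 1) (he2 : ‖e2‖ = 1) (h12 : inner ℝ e1 e2 = 0) :
    ∀ x ∈ Sset B1 B2, ∀ y ∈ Sset B1 B2, ∀ z ∈ Sset B1 B2,
      Upot B1 B2 x + Upot B1 B2 y + Upot B1 B2 z ≤ coulomb x y z := by
  intro x hx y hy z hz
  by_cases h : x = y ∨ x = z ∨ y = z
  · rw [coulomb_eq_top x y z h]; exact le_top
  · push Not at h
    obtain ⟨hxy, hxz, hyz⟩ := h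
    rw [coulomb_of_ne x y z hxy hxz hyz, Upot_add B1 B2 he1 he2]
    exact ENNReal.ofReal_le_ofReal (real_ineq B1 B2 he1 he2 h12 x y z hx hy hz hxy hxz hyz)

theorem H2a (he1 : ‖e1‖ = 1) (he2 : ‖e2‖ = 1) (h12 : inner ℝ e1 e2 = 0) :
    ∀ a ∈ U0, coulomb a (B1.β a) (B1.γ a) ≤
      Upot B1 B2 a + Upot B1 B2 (B1.β a) + Upot B1 B2 (B1.γ a) := by
  intro a ha
  have hO : a ∈ region B1 B2 .O := ha
  have n1 := region_ne B1 B2 he1 he2 h12 .O .V1 (by decide) _ _ hO (β1_mem_region B1 B2 a ha)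
  have n2 := region_ne B1 B2 he1 he2 h12 .O .W1 (by decide) _ _ hO (γ1_mem_region B1 B2 a ha)
  have n3 := region_ne B1 B2 he1 he2 h12 .V1 .W1 (by decide) _ _ (β1_mem_region B1 B2 a ha)
    (γ1_mem_region B1 B2 a ha)
  rw [coulomb_of_ne _ _ _ n1 n2 n3, Upot_add B1 B2 he1 he2,
    real_eq1 B1 B2 he1 he2 h12 a ha]

theorem H2b (he1 : ‖e1‖ = 1) (he2 : ‖e2‖ = 1) (h12 : inner ℝ e1 e2 = 0) :
    ∀ a ∈ U0, coulomb a (B2.β a) (B2.γ a) ≤
      Upot B1 B2 a + Upot B1 B2 (B2.β a) + Upot B1 B2 (B2.γ a) := by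
  intro a ha
  have hO : a ∈ region B1 B2 .O := ha
  have n1 := region_ne B1 B2 he1 he2 h12 .O .V2 (by decide) _ _ hO (β2_mem_region B1 B2 a ha)
  have n2 := region_ne B1 B2 he1 he2 h12 .O .W2 (by decide) _ _ hO (γ2_mem_region B1 B2 a ha)
  have n3 := region_ne B1 B2 he1 he2 h12 .V2 .W2 (by decide) _ _ (β2_mem_region B1 B2 a ha)
    (γ2_mem_region B1 B2 a ha)
  rw [coulomb_of_ne _ _ _ n1 n2 n3, Upot_add B1 B2 he1 he2,
    real_eq2 B1 B2 he1 he2 h12 a ha]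

theorem H3 (he1 : ‖e1‖ = 1) (he2 : ‖e2‖ = 1) (h12 : inner ℝ e1 e2 = 0) :
    ∀ x ∈ U0, ∀ y ∈ Sset B1 B2, ∀ z ∈ Sset B1 B2,
      coulomb x y z ≤ Upot B1 B2 x + Upot B1 B2 y + Upot B1 B2 z →
        y = B1.γ x ∨ z = B1.γ x ∨ y = B2.γ x ∨ z = B2.γ x := by
  intro x hx y hy z hz h
  rw [Upot_add B1 B2 he1 he2] at h
  by_cases hh : x = y ∨ x = z ∨ y = z
  · rw [coulomb_eq_top x y z hh] at h
    exact absurd (top_le_iff.1 h) ENNReal.ofReal_ne_top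
  · push Not at hh
    obtain ⟨hxy, hxz, hyz⟩ := hh
    rw [coulomb_of_ne x y z hxy hxz hyz] at h
    have hnn : 0 ≤ upot B1 B2 x + upot B1 B2 y + upot B1 B2 z :=
      add_nonneg (add_nonneg (upot_nonneg B1 B2 he1 he2 x) (upot_nonneg B1 B2 he1 he2 y))
        (upot_nonneg B1 B2 he1 he2 z)
    exact real_contact B1 B2 he1 he2 h12 x y z hx hy hz hxy hxz hyz
      ((ENNReal.ofReal_le_ofReal_iff hnn).1 h)

theorem hd1 (he1 : ‖e1‖ = 1) (he2 : ‖e2‖ = 1) (h12 : inner ℝ e1 e2 = 0) :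
    ∀ a ∈ U0, ∀ a' ∈ U0,
      B1.γ a ≠ a' ∧ B1.γ a ≠ B1.β a' ∧ B1.γ a ≠ B2.β a' ∧ B1.γ a ≠ B2.γ a' := by
  intro a ha a' ha'
  have hO : a' ∈ region B1 B2 .O := ha'
  have hW := γ1_mem_region B1 B2 a ha
  exact ⟨region_ne B1 B2 he1 he2 h12 .W1 .O (by decide) _ _ hW hO,
    region_ne B1 B2 he1 he2 h12 .W1 .V1 (by decide) _ _ hW (β1_mem_region B1 B2 a' ha'),
    region_ne B1 B2 he1 he2 h12 .W1 .V2 (by decide) _ _ hW (β2_mem_region B1 B2 a' ha'),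
    region_ne B1 B2 he1 he2 h12 .W1 .W2 (by decide) _ _ hW (γ2_mem_region B1 B2 a' ha')⟩

theorem hd2 (he1 : ‖e1‖ = 1) (he2 : ‖e2‖ = 1) (h12 : inner ℝ e1 e2 = 0) :
    ∀ a ∈ U0, ∀ a' ∈ U0,
      B2.γ a ≠ a' ∧ B2.γ a ≠ B2.β a' ∧ B2.γ a ≠ B1.β a' ∧ B2.γ a ≠ B1.γ a' := by
  intro a ha a' ha'
  have hO : a' ∈ region B1 B2 .O := ha'
  have hW := γ2_mem_region B1 B2 a ha
  exact ⟨region_ne B1 B2 he1 he2 h12 .W2 .O (by decide) _ _ hW hO,
    region_ne B1 B2 he1 he2 h12 .W2 .V2 (by decide) _ _ hW (β2_mem_region B1 B2 a' ha'),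
    region_ne B1 B2 he1 he2 h12 .W2 .V1 (by decide) _ _ hW (β1_mem_region B1 B2 a' ha'),
    region_ne B1 B2 he1 he2 h12 .W2 .W1 (by decide) _ _ hW (γ1_mem_region B1 B2 a' ha')⟩

end Vale.Agent.Lib.P121
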