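import Mathlib

/-!
# P121: the three-marginal Coulomb problem, basic definitions
-/

namespace Vale.Agent.Lib.P121

open MeasureTheory
open scoped ENNReal

/-- Euclidean three-space. -/
abbrev E3 : Type := EuclideanSpace ℝ (Fin 3)

/-- The Coulomb cost of three points; it is `⊤` as soon as two of the points coincide. -/
noncomputable def coulomb (x y z : E3) : ℝ≥0∞ :=
  (ENNReal.ofReal (dist x y))⁻¹ + (ENNReal.ofReal (dist x z))⁻¹ + (ENNReal.ofReal (dist y z))⁻¹

/-- `π` is a measure on the triple product all of whose three marginals are `μ`. -/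
def IsCoupling (μ : Measure E3) (π : Measure (E3 × E3 × E3)) : Prop :=
  π.map (fun p => p.1) = μ ∧ π.map (fun p => p.2.1) = μ ∧ π.map (fun p => p.2.2) = μ

/-- The Kantorovich value: the infimum of the Coulomb cost over all couplings. -/
noncomputable def kantorovich (μ : Measure E3) : ℝ≥0∞ :=
  ⨅ (π : Measure (E3 × E3 × E3)) (_ : IsCoupling μ π), ∫⁻ p, coulomb p.1 p.2.1 p.2.2 ∂π

/-- `μ` admits an optimal Monge plan: Borel maps `T2`, `T3` pushing `μ` to `μ` whose cost is the
Kantorovich value. -/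
def HasOptimalMonge (μ : Measure E3) : Prop :=
  ∃ T2 T3 : E3 → E3, Measurable T2 ∧ Measurable T3 ∧ μ.map T2 = μ ∧ μ.map T3 = μ ∧
    ∫⁻ x, coulomb x (T2 x) (T3 x) ∂μ = kantorovich μ

end Vale.Agent.Lib.P121
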