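import Vale.Agent.Lib.P121.Basic

/-!
# P121 task F1: the one sided quadratic lower bound for `1/|v|`

Sketch.  Put `s = ‖v‖`, `t = ‖v'‖`, `δ = v' - v`, so `t^2 = s^2 + 2⟪v,δ⟫ + ‖δ‖^2`.
AM-GM: `t ≤ (s^2+t^2)/(2s)`, hence `1/t ≥ 2s/(s^2+t^2) = (1/s) * 1/(1+X)` with
`X = (t^2-s^2)/(2s^2) > -1`, and `1/(1+X) ≥ 1 - X`.  So
`1/t ≥ 1/s - X/s = 1/s - ⟪v,δ⟫/s^3 - ‖δ‖^2/(2s^3)` and `⟪Ef v, δ⟫ = -⟪v,δ⟫/s^3`.
-/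

namespace Vale.Agent.Lib.P121

theorem inv_norm_lower (v v' : E3) (hv : v ≠ 0) (hv' : v' ≠ 0) :
    ‖v‖⁻¹ + inner ℝ (Ef v) (v' - v) - ‖v' - v‖ ^ 2 / (2 * ‖v‖ ^ 3) ≤ ‖v'‖⁻¹ := by
  have h : 0 < ‖v‖ := norm_pos_iff.mpr hv
  have h' : 0 < ‖v'‖ := norm_pos_iff.mpr hv'
  set a := ‖v‖ with ha
  set b := ‖v'‖ with hb
  have key : b ^ 2 = a ^ 2 + 2 * inner ℝ v (v' - v) + ‖v' - v‖ ^ 2 := by
    have : v' = v + (v' - v) := by abel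
    have h2 : ‖v'‖ ^ 2 = ‖v + (v' - v)‖ ^ 2 := by rw [← this]
    rw [norm_add_sq_real] at h2
    rw [hb, ha]; linarith
  have hin : inner ℝ (Ef v) (v' - v) = -(a ^ 3)⁻¹ * inner ℝ v (v' - v) := by
    unfold Ef
    rw [inner_neg_left, inner_smul_left]
    simp [ha]
  rw [hin]
  have e1 : a⁻¹ + -(a ^ 3)⁻¹ * inner ℝ v (v' - v) - ‖v' - v‖ ^ 2 / (2 * a ^ 3)
      = (3 * a ^ 2 - b ^ 2) / (2 * a ^ 3) := by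
    rw [key]; field_simp; ring
  rw [e1, inv_eq_one_div, div_le_div_iff₀ (by positivity) h']
  nlinarith [mul_nonneg h'.le (sq_nonneg (a - b)), sq_nonneg (a - b), mul_pos h h',
    mul_nonneg h.le (sq_nonneg (a - b)), mul_nonneg (add_pos h h').le (sq_nonneg (a-b))]

end Vale.Agent.Lib.P121
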