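import Vale.Agent.Lib.P121.Mix

/-!
# P121 task A4: the mass argument

`mix_image_le`: for measurable `F ⊆ U0` the set `c1 '' F` is measurable
(`MeasurableSet.image_of_measurable_injOn`), and by `mix_apply`, `ρ U0ᶜ = 0`, injectivity of `c1`
on `U0` and the disjointness hypothesis `hd`:
`ρ (c1 '' F) = 0`, `ρ (b1 ⁻¹' (c1 '' F)) = 0`, `ρ (b2 ⁻¹' _) = 0`, `ρ (c2 ⁻¹' _) = 0`,
`ρ (c1 ⁻¹' (c1 '' F)) ≤ ρ F` (each preimage intersected with `U0` is empty, resp. `⊆ F`).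

`mass_argument`: `F = {x ∈ U0 | T x = c1 x}` is measurable (`measurableSet_eq_fun`).
`F ⊆ T ⁻¹' (c1 '' F)`, so
`3⁻¹ ρ F ≤ mix F ≤ mix (T ⁻¹' (c1 '' F)) = (mix.map T) (c1 '' F) = mix (c1 '' F) ≤ 6⁻¹ ρ F`,
and `ρ F ≤ 1 < ⊤` forces `ρ F = 0`.
-/

namespace Vale.Agent.Lib.P121

open MeasureTheory
open scoped ENNReal

/-- a set missing `U0` is `ρ`-null. -/
theorem null_of_subset_compl (ρ : Measure E3) (hρ : ρ U0ᶜ = 0) (A : Set E3)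
    (hA : ∀ x ∈ A, x ∉ U0) : ρ A = 0 :=
  measure_mono_null (fun x hx => hA x hx) hρ

theorem mix_image_le (ρ : Measure E3) (hρ : ρ U0ᶜ = 0) (b1 c1 b2 c2 : E3 → E3)
    (hb1 : Measurable b1) (hc1 : Measurable c1) (hb2 : Measurable b2) (hc2 : Measurable c2)
    (hinj1 : Set.InjOn c1 U0)
    (hd1 : ∀ a ∈ U0, ∀ a' ∈ U0, c1 a ≠ a' ∧ c1 a ≠ b1 a' ∧ c1 a ≠ b2 a' ∧ c1 a ≠ c2 a')
    (F : Set E3) (hFU : F ⊆ U0) (hF : MeasurableSet F) :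
    MeasurableSet (c1 '' F) ∧ mix ρ b1 c1 b2 c2 (c1 '' F) ≤ 6⁻¹ * ρ F := by
  have hm : MeasurableSet (c1 '' F) :=
    hF.image_of_measurable_injOn hc1 (hinj1.mono hFU)
  refine ⟨hm, ?_⟩
  rw [mix_apply ρ b1 c1 b2 c2 hb1 hc1 hb2 hc2 _ hm]
  have z0 : ρ (c1 '' F) = 0 := by
    apply null_of_subset_compl ρ hρ
    rintro x ⟨a, haF, rfl⟩ hx
    exact (hd1 a (hFU haF) _ hx).1 rfl
  have z1 : ρ (b1 ⁻¹' (c1 '' F)) = 0 := by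
    apply null_of_subset_compl ρ hρ
    rintro x ⟨a, haF, hax⟩ hx
    exact (hd1 a (hFU haF) _ hx).2.1 hax
  have z2 : ρ (b2 ⁻¹' (c1 '' F)) = 0 := by
    apply null_of_subset_compl ρ hρ
    rintro x ⟨a, haF, hax⟩ hx
    exact (hd1 a (hFU haF) _ hx).2.2.1 hax
  have z3 : ρ (c2 ⁻¹' (c1 '' F)) = 0 := by
    apply null_of_subset_compl ρ hρ
    rintro x ⟨a, haF, hax⟩ hx
    exact (hd1 a (hFU haF) _ hx).2.2.2 hax
  have z4 : ρ (c1 ⁻¹' (c1 '' F)) ≤ ρ F := by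
    have hsub : c1 ⁻¹' (c1 '' F) ⊆ F ∪ U0ᶜ := by
      rintro x ⟨a, haF, hax⟩
      by_cases hx : x ∈ U0
      · left
        have : a = x := hinj1 (hFU haF) hx hax
        rwa [← this]
      · right; exact hx
    calc ρ (c1 ⁻¹' (c1 '' F)) ≤ ρ (F ∪ U0ᶜ) := measure_mono hsub
      _ ≤ ρ F + ρ U0ᶜ := measure_union_le _ _
      _ = ρ F := by rw [hρ, add_zero]
  rw [z0, z1, z2, z3]
  simp only [mul_zero, zero_add, add_zero]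
  gcongr

theorem mass_argument (ρ : Measure E3) [IsProbabilityMeasure ρ] (hρ : ρ U0ᶜ = 0)
    (b1 c1 b2 c2 : E3 → E3)
    (hb1 : Measurable b1) (hc1 : Measurable c1) (hb2 : Measurable b2) (hc2 : Measurable c2)
    (hinj1 : Set.InjOn c1 U0)
    (hd1 : ∀ a ∈ U0, ∀ a' ∈ U0, c1 a ≠ a' ∧ c1 a ≠ b1 a' ∧ c1 a ≠ b2 a' ∧ c1 a ≠ c2 a')
    (T : E3 → E3) (hT : Measurable T)
    (hTμ : (mix ρ b1 c1 b2 c2).map T = mix ρ b1 c1 b2 c2) :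
    ρ {x | x ∈ U0 ∧ T x = c1 x} = 0 := by
  obtain ⟨F, hFdef⟩ : ∃ F : Set E3, F = {x | x ∈ U0 ∧ T x = c1 x} := ⟨_, rfl⟩
  rw [← hFdef]
  have hF : MeasurableSet F := by
    rw [hFdef]
    exact measurableSet_U0.inter (measurableSet_eq_fun hT hc1)
  have hFU : F ⊆ U0 := by
    rw [hFdef]; exact fun x hx => hx.1
  obtain ⟨hm, hle⟩ := mix_image_le ρ hρ b1 c1 b2 c2 hb1 hc1 hb2 hc2 hinj1 hd1 F hFU hF
  have hsub : F ⊆ T ⁻¹' (c1 '' F) := by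
    intro x hx
    have hx' : x ∈ U0 ∧ T x = c1 x := by rw [hFdef] at hx; exact hx
    exact ⟨x, hx, hx'.2.symm⟩
  have h1 : ρ F ≤ 3 * mix ρ b1 c1 b2 c2 F := le_three_mix ρ b1 c1 b2 c2 F
  have h2 : mix ρ b1 c1 b2 c2 F ≤ 6⁻¹ * ρ F := by
    calc mix ρ b1 c1 b2 c2 F ≤ mix ρ b1 c1 b2 c2 (T ⁻¹' (c1 '' F)) := measure_mono hsub
      _ = ((mix ρ b1 c1 b2 c2).map T) (c1 '' F) := (Measure.map_apply hT hm).symm
      _ = mix ρ b1 c1 b2 c2 (c1 '' F) := by rw [hTμ]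
      _ ≤ 6⁻¹ * ρ F := hle
  have h3 : ρ F ≤ 2⁻¹ * ρ F := by
    calc ρ F ≤ 3 * mix ρ b1 c1 b2 c2 F := h1
      _ ≤ 3 * (6⁻¹ * ρ F) := by gcongr
      _ = (3 * 6⁻¹) * ρ F := by rw [mul_assoc]
      _ = 2⁻¹ * ρ F := by
        congr 1
        have h6 : (6 : ℝ≥0∞) = 3 * 2 := by norm_num
        rw [h6, ENNReal.mul_inv (by left; norm_num) (by left; norm_num), ← mul_assoc,
          ENNReal.mul_inv_cancel (by norm_num) (by norm_num), one_mul]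
  have hfin : ρ F ≠ ⊤ := measure_ne_top ρ F
  by_contra hne
  have hlt : 2⁻¹ * ρ F < ρ F := by
    have := ENNReal.half_lt_self hne hfin
    rwa [ENNReal.div_eq_inv_mul] at this
  exact absurd h3 (not_le.mpr hlt)

end Vale.Agent.Lib.P121
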