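import Vale.Agent.Lib.P121.Plan
import Vale.Agent.Lib.P121.Contact
import Vale.Agent.Lib.P121.Mass

/-!
# P121 task A5: the abstract theorem: potential + two touching branches => no optimal Monge plan

Let `μ = mix ρ b1 c1 b2 c2`, `D = 3 ∫⁻ U ∂μ ≤ 6 < ⊤`.
* `kantorovich μ ≤ D` by `kantorovich_mix_le` (`H2a`, `H2b` hold `ρ`-a.e. since `ρ U0ᶜ = 0`).
* Suppose `T2, T3` is an optimal Monge pair.  `mix_prob`, `mix_compl_null`, `monge_contact` give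
  a.e. contact w.r.t. `μ`, hence w.r.t. `ρ` (`ae_of_ae_mix`), and `ρ`-a.e. `x ∈ U0`.  By `H3`,
  `ρ`-a.e. `x` lies in one of the four sets `{x ∈ U0 | T_j x = c_i x}`, each of which is `ρ`-null
  by `mass_argument` (for `c2` use `mix_swap` and `hd2`).  So `ρ univ = 0`, contradiction with
  `ρ univ = 1`.
-/

namespace Vale.Agent.Lib.P121

open MeasureTheory
open scoped ENNReal

theorem no_monge_of_potential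
    (ρ : Measure E3) [IsProbabilityMeasure ρ] (hρ : ρ U0ᶜ = 0)
    (S : Set E3) (hS : MeasurableSet S)
    (b1 c1 b2 c2 : E3 → E3)
    (hb1 : Measurable b1) (hc1 : Measurable c1) (hb2 : Measurable b2) (hc2 : Measurable c2)
    (hU0S : U0 ⊆ S) (hb1S : ∀ a ∈ U0, b1 a ∈ S) (hc1S : ∀ a ∈ U0, c1 a ∈ S)
    (hb2S : ∀ a ∈ U0, b2 a ∈ S) (hc2S : ∀ a ∈ U0, c2 a ∈ S)
    (U : E3 → ℝ≥0∞) (hU : Measurable U) (hUb : ∀ x, U x ≤ 2)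
    (H1 : ∀ x ∈ S, ∀ y ∈ S, ∀ z ∈ S, U x + U y + U z ≤ coulomb x y z)
    (H2a : ∀ a ∈ U0, coulomb a (b1 a) (c1 a) ≤ U a + U (b1 a) + U (c1 a))
    (H2b : ∀ a ∈ U0, coulomb a (b2 a) (c2 a) ≤ U a + U (b2 a) + U (c2 a))
    (H3 : ∀ x ∈ U0, ∀ y ∈ S, ∀ z ∈ S, coulomb x y z ≤ U x + U y + U z →
      y = c1 x ∨ z = c1 x ∨ y = c2 x ∨ z = c2 x)
    (hinj1 : Set.InjOn c1 U0) (hinj2 : Set.InjOn c2 U0)
    (hd1 : ∀ a ∈ U0, ∀ a' ∈ U0, c1 a ≠ a' ∧ c1 a ≠ b1 a' ∧ c1 a ≠ b2 a' ∧ c1 a ≠ c2 a')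
    (hd2 : ∀ a ∈ U0, ∀ a' ∈ U0, c2 a ≠ a' ∧ c2 a ≠ b2 a' ∧ c2 a ≠ b1 a' ∧ c2 a ≠ c1 a') :
    kantorovich (mix ρ b1 c1 b2 c2) < ⊤ ∧ ¬ HasOptimalMonge (mix ρ b1 c1 b2 c2) := by
  have hprob : IsProbabilityMeasure (mix ρ b1 c1 b2 c2) :=
    mix_prob ρ b1 c1 b2 c2 hb1 hc1 hb2 hc2
  have hae : ∀ᵐ a ∂ρ, a ∈ U0 := by
    rw [ae_iff]; exact hρ
  have hK : kantorovich (mix ρ b1 c1 b2 c2) ≤ 3 * ∫⁻ x, U x ∂(mix ρ b1 c1 b2 c2) :=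
    kantorovich_mix_le ρ b1 c1 b2 c2 hb1 hc1 hb2 hc2 U hU
      (hae.mono fun a ha => H2a a ha) (hae.mono fun a ha => H2b a ha)
  have hD : 3 * ∫⁻ x, U x ∂(mix ρ b1 c1 b2 c2) < ⊤ := by
    have h2 : ∫⁻ x, U x ∂(mix ρ b1 c1 b2 c2) ≤ 2 := by
      calc ∫⁻ x, U x ∂(mix ρ b1 c1 b2 c2) ≤ ∫⁻ _, 2 ∂(mix ρ b1 c1 b2 c2) := lintegral_mono hUb
        _ = 2 := by simp
    calc 3 * ∫⁻ x, U x ∂(mix ρ b1 c1 b2 c2) ≤ 3 * 2 := by gcongr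
      _ < ⊤ := by
        exact ENNReal.mul_lt_top (by simp) (by simp)
  refine ⟨lt_of_le_of_lt hK hD, ?_⟩
  rintro ⟨T2, T3, hT2, hT3, h2, h3, hcost⟩
  have hμS : mix ρ b1 c1 b2 c2 Sᶜ = 0 :=
    mix_compl_null ρ b1 c1 b2 c2 hb1 hc1 hb2 hc2 hρ S hS hU0S hb1S hc1S hb2S hc2S
  have hc := monge_contact (mix ρ b1 c1 b2 c2) S hS hμS U hU hUb H1 T2 T3 hT2 hT3 h2 h3
    (hcost.le.trans hK)
  have hc' := ae_of_ae_mix ρ b1 c1 b2 c2 hc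
  have m1 := mass_argument ρ hρ b1 c1 b2 c2 hb1 hc1 hb2 hc2 hinj1 hd1 T2 hT2 h2
  have m2 := mass_argument ρ hρ b1 c1 b2 c2 hb1 hc1 hb2 hc2 hinj1 hd1 T3 hT3 h3
  have hsw : mix ρ b2 c2 b1 c1 = mix ρ b1 c1 b2 c2 := mix_swap ρ b1 c1 b2 c2
  have m3 := mass_argument ρ hρ b2 c2 b1 c1 hb2 hc2 hb1 hc1 hinj2 hd2 T2 hT2
    (by rw [hsw]; exact h2)
  have m4 := mass_argument ρ hρ b2 c2 b1 c1 hb2 hc2 hb1 hc1 hinj2 hd2 T3 hT3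
    (by rw [hsw]; exact h3)
  have hsub : ∀ᵐ x ∂ρ, x ∈ ({x | x ∈ U0 ∧ T2 x = c1 x} ∪ {x | x ∈ U0 ∧ T3 x = c1 x} ∪
      ({x | x ∈ U0 ∧ T2 x = c2 x} ∪ {x | x ∈ U0 ∧ T3 x = c2 x}) : Set E3) := by
    filter_upwards [hae, hc'] with x hx hx'
    obtain ⟨h2S, h3S, hle⟩ := hx'
    rcases H3 x hx _ h2S _ h3S hle with h | h | h | h
    · exact Or.inl (Or.inl ⟨hx, h⟩)
    · exact Or.inl (Or.inr ⟨hx, h⟩)
    · exact Or.inr (Or.inl ⟨hx, h⟩)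
    · exact Or.inr (Or.inr ⟨hx, h⟩)
  have hnull : ρ ({x | x ∈ U0 ∧ T2 x = c1 x} ∪ {x | x ∈ U0 ∧ T3 x = c1 x} ∪
      ({x | x ∈ U0 ∧ T2 x = c2 x} ∪ {x | x ∈ U0 ∧ T3 x = c2 x}) : Set E3) = 0 :=
    measure_union_null (measure_union_null m1 m2) (measure_union_null m3 m4)
  have huniv : ρ Set.univ = 0 := by
    have h5 : ρ (({x | x ∈ U0 ∧ T2 x = c1 x} ∪ {x | x ∈ U0 ∧ T3 x = c1 x} ∪
      ({x | x ∈ U0 ∧ T2 x = c2 x} ∪ {x | x ∈ U0 ∧ T3 x = c2 x}) : Set E3)ᶜ) = 0 := by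
      rw [ae_iff] at hsub
      exact hsub
    have h6 := measure_union_null hnull h5
    rwa [Set.union_compl_self] at h6
  rw [measure_univ] at huniv
  exact one_ne_zero huniv

end Vale.Agent.Lib.P121
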