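import Vale.Agent.Lib.P121.Conv
import Vale.Agent.Lib.P121.NoMonge
import Vale.Agent.Lib.P121.AntiLipAC

/-!
# P121: the counterexample
-/

namespace Vale.Agent.Lib.P121

open MeasureTheory
open scoped ENNReal

/-- normalised Lebesgue measure on the central blob. -/
noncomputable def rho : Measure E3 := (volume U0)⁻¹ • (volume : Measure E3).restrict U0

theorem volume_U0_ne_zero : (volume : Measure E3) U0 ≠ 0 := by
  have : (0 : ℝ) < r0 := by unfold r0; norm_num
  exact (Metric.measure_closedBall_pos volume (0 : E3) this).ne'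

theorem volume_U0_ne_top : (volume : Measure E3) U0 ≠ ⊤ :=
  (measure_closedBall_lt_top (μ := (volume : Measure E3)) (x := (0 : E3)) (r := r0)).ne

instance rho_prob : IsProbabilityMeasure rho := by
  constructor
  simp only [rho, Measure.smul_apply, Measure.restrict_apply MeasurableSet.univ, Set.univ_inter,
    smul_eq_mul]
  exact ENNReal.inv_mul_cancel volume_U0_ne_zero volume_U0_ne_top

theorem rho_compl : rho U0ᶜ = 0 := by
  simp only [rho, Measure.smul_apply, smul_eq_mul]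
  rw [Measure.restrict_apply measurableSet_U0.compl]
  simp

theorem rho_ac : rho ≪ (volume : Measure E3) :=
  (Measure.restrict_le_self.absolutelyContinuous).smul_left _

theorem map_rho_ac (f : E3 → E3) (hf : Measurable f) (C : ℝ)
    (h : ∀ x ∈ U0, ∀ y ∈ U0, ‖x - y‖ ≤ C * ‖f x - f y‖) : rho.map f ≪ (volume : Measure E3) := by
  unfold rho
  rw [Measure.map_smul]
  exact (map_ac_of_antilip f hf U0 measurableSet_U0 C h).smul_left _

theorem mix_ac (b1 c1 b2 c2 : E3 → E3) (h1 : rho.map b1 ≪ (volume : Measure E3))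
    (h2 : rho.map c1 ≪ (volume : Measure E3)) (h3 : rho.map b2 ≪ (volume : Measure E3))
    (h4 : rho.map c2 ≪ (volume : Measure E3)) : mix rho b1 c1 b2 c2 ≪ (volume : Measure E3) := by
  unfold mix
  refine Measure.AbsolutelyContinuous.add_left (rho_ac.smul_left _) ?_
  refine Measure.AbsolutelyContinuous.smul_left ?_ _
  exact ((h1.add_left h2).add_left h3).add_left h4

theorem counterexample :
    ∃ μ : Measure E3, IsProbabilityMeasure μ ∧ μ ≪ volume ∧ kantorovich μ < ⊤ ∧
      ¬ HasOptimalMonge μ := by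
  set e1 : E3 := EuclideanSpace.single 0 1 with he1def
  set e2 : E3 := EuclideanSpace.single 1 1 with he2def
  have he1 : ‖e1‖ = 1 := by simp [he1def]
  have he2 : ‖e2‖ = 1 := by simp [he2def]
  have h12 : inner ℝ e1 e2 = 0 := by
    rw [he1def, he2def, EuclideanSpace.inner_single_left]
    simp
  obtain ⟨B1⟩ := exists_branch e1 he1
  obtain ⟨B2⟩ := exists_branch e2 he2
  refine ⟨mix rho B1.β B1.γ B2.β B2.γ,
    mix_prob rho _ _ _ _ B1.β_meas B1.γ_meas B2.β_meas B2.γ_meas, ?_, ?_⟩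
  · exact mix_ac _ _ _ _ (map_rho_ac _ B1.β_meas 400 (B1.β_anti he1))
      (map_rho_ac _ B1.γ_meas 1 (B1.γ_anti he1)) (map_rho_ac _ B2.β_meas 400 (B2.β_anti he2))
      (map_rho_ac _ B2.γ_meas 1 (B2.γ_anti he2))
  · exact no_monge_of_potential rho rho_compl (Sset B1 B2) (measurableSet_Sset B1 B2 he1 he2)
      B1.β B1.γ B2.β B2.γ B1.β_meas B1.γ_meas B2.β_meas B2.γ_meas
      (U0_subset_Sset B1 B2) (β1_mem_Sset B1 B2) (γ1_mem_Sset B1 B2) (β2_mem_Sset B1 B2)
      (γ2_mem_Sset B1 B2) (Upot B1 B2) (measurable_Upot B1 B2 he1 he2)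
      (Upot_le_two B1 B2 he1 he2 h12) (H1 B1 B2 he1 he2 h12) (H2a B1 B2 he1 he2 h12)
      (H2b B1 B2 he1 he2 h12) (H3 B1 B2 he1 he2 h12) (B1.γ_injOn he1) (B2.γ_injOn he2)
      (hd1 B1 B2 he1 he2 h12) (hd2 B1 B2 he1 he2 h12)

end Vale.Agent.Lib.P121
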