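import Vale.Agent.Lib.P121.Basic

/-!
# P121 task G1: the five kinds of blobs, base points, distance tables

`e1, e2` orthonormal.  Base points `0, e1, -e1, e2, -e2`.
`‖e1 ± e2‖^2 = 2 ≤ 1.415^2`, `‖e - (-e)‖ = 2`, `‖0 - (±e)‖ = 1`.
`pair_lower`: `‖x - y‖ ≤ ‖base i - base j‖ + 2 eta` (`norm_sub_range`), positive since `x ≠ y`;
then `1/(0.002) ≥ 100`, `1/1.002 ≥ 0.99`, `1/2.002 ≥ 0.49`, `1/1.417 ≥ 0.70`.
`pair_ne`: `‖base i - base j‖ ≥ 1` for `i ≠ j`, so `‖x - y‖ ≥ 0.998 > 0`.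
`table_check`: `cases i <;> cases j <;> cases k <;> simp_all [contact, utab, gtab]` or `decide`.
-/

namespace Vale.Agent.Lib.P121

/-- the five blobs: centre, `e1`, `-e1`, `e2`, `-e2`. -/
inductive Kind
  | O | V1 | W1 | V2 | W2
  deriving DecidableEq

instance : Fintype Kind :=
  ⟨{Kind.O, Kind.V1, Kind.W1, Kind.V2, Kind.W2}, by intro x; cases x <;> simp⟩

/-- base points. -/
def base (e1 e2 : E3) : Kind → E3
  | .O => 0
  | .V1 => e1
  | .W1 => -e1
  | .V2 => e2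
  | .W2 => -e2

/-- lower bounds (in hundredths) for the inverse distance between two distinct points of blobs of
the given kinds. -/
def gtab : Kind → Kind → ℕ
  | .O, .O => 10000
  | .V1, .V1 => 10000
  | .W1, .W1 => 10000
  | .V2, .V2 => 10000
  | .W2, .W2 => 10000
  | .O, _ => 99
  | _, .O => 99
  | .V1, .W1 => 49
  | .W1, .V1 => 49
  | .V2, .W2 => 49
  | .W2, .V2 => 49
  | _, _ => 70

/-- upper bounds (in hundredths) for the potential on the blobs. -/
def utab : Kind → ℕ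
  | .O => 150
  | _ => 51

/-- the types of triples on which the potential touches the cost. -/
def contact : Kind → Kind → Kind → Bool
  | .O, .V1, .W1 => true
  | .O, .W1, .V1 => true
  | .V1, .O, .W1 => true
  | .V1, .W1, .O => true
  | .W1, .O, .V1 => true
  | .W1, .V1, .O => true
  | .O, .V2, .W2 => true
  | .O, .W2, .V2 => true
  | .V2, .O, .W2 => true
  | .V2, .W2, .O => true
  | .W2, .O, .V2 => true
  | .W2, .V2, .O => true
  | _, _, _ => false

theorem table_check (i j k : Kind) (h : contact i j k = false) :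
    utab i + utab j + utab k < gtab i j + gtab i k + gtab j k := by
  cases i <;> cases j <;> cases k <;> simp_all [contact, utab, gtab]

variable {e1 e2 : E3}

/-- squared distances of the base points. -/
def dsq : Kind → Kind → ℕ
  | .O, .O => 0
  | .V1, .V1 => 0
  | .W1, .W1 => 0
  | .V2, .V2 => 0
  | .W2, .W2 => 0
  | .O, _ => 1
  | _, .O => 1
  | .V1, .W1 => 4
  | .W1, .V1 => 4
  | .V2, .W2 => 4
  | .W2, .V2 => 4
  | _, _ => 2

theorem base_sq (he1 : ‖e1‖ = 1) (he2 : ‖e2‖ = 1) (h12 : inner ℝ e1 e2 = 0) (i j : Kind) :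
    ‖base e1 e2 i - base e1 e2 j‖ ^ 2 = (dsq i j : ℝ) := by
  have h21 : inner ℝ e2 e1 = 0 := by rw [real_inner_comm]; exact h12
  have h11 : inner ℝ e1 e1 = 1 := by rw [real_inner_self_eq_norm_sq, he1]; norm_num
  have h22 : inner ℝ e2 e2 = 1 := by rw [real_inner_self_eq_norm_sq, he2]; norm_num
  rw [norm_sub_sq_real]
  cases i <;> cases j <;>
    simp [base, dsq, he1, he2, h12, h21, h11, h22, inner_neg_left, inner_neg_right] <;> norm_num

theorem pair_upper_aux (i j : Kind) (B t : ℝ) (hB0 : 0 ≤ B) (hB : B ^ 2 = (dsq i j : ℝ))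
    (ht0 : 0 < t) (ht : t ≤ B + 2 * eta) : (gtab i j : ℝ) / 100 ≤ t⁻¹ := by
  rw [div_le_iff₀ (by norm_num : (0 : ℝ) < 100), ← div_eq_inv_mul, le_div_iff₀ ht0]
  unfold eta at ht
  cases i <;> cases j <;> simp only [dsq, gtab] at hB ⊢ <;> push_cast at hB ⊢ <;> nlinarith

theorem pair_lower (he1 : ‖e1‖ = 1) (he2 : ‖e2‖ = 1) (h12 : inner ℝ e1 e2 = 0) (i j : Kind)
    (x y : E3) (hx : ‖x - base e1 e2 i‖ ≤ eta) (hy : ‖y - base e1 e2 j‖ ≤ eta) (hxy : x ≠ y) :
    (gtab i j : ℝ) / 100 ≤ ‖x - y‖⁻¹ := by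
  have h := norm_sub_range (base e1 e2 i) (base e1 e2 j) x y _ eta eta rfl hx hy
  apply pair_upper_aux i j ‖base e1 e2 i - base e1 e2 j‖ ‖x - y‖ (norm_nonneg _)
    (base_sq he1 he2 h12 i j) (norm_pos_iff.mpr (sub_ne_zero.mpr hxy))
  linarith [h.2]

theorem pair_ne (he1 : ‖e1‖ = 1) (he2 : ‖e2‖ = 1) (h12 : inner ℝ e1 e2 = 0) (i j : Kind)
    (hij : i ≠ j) (x y : E3) (hx : ‖x - base e1 e2 i‖ ≤ eta) (hy : ‖y - base e1 e2 j‖ ≤ eta) :
    x ≠ y := by
  intro hxy
  have h := norm_sub_range (base e1 e2 i) (base e1 e2 j) x y _ eta eta rfl hx hy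
  have hB := base_sq he1 he2 h12 i j
  have hB0 := norm_nonneg (base e1 e2 i - base e1 e2 j)
  have h1 : (1 : ℝ) ≤ (dsq i j : ℝ) := by
    cases i <;> cases j <;> simp_all [dsq]
  rw [hxy, sub_self, norm_zero] at h
  have h2 := h.1
  unfold eta at h2
  nlinarith

end Vale.Agent.Lib.P121
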