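import Vale.Agent.Lib.P121.Basic

/-!
# P121 task A1: the five blob measure `mix` and its elementary properties

`mix ρ b1 c1 b2 c2 = (1/3) ρ + (1/6) (b1#ρ + c1#ρ + b2#ρ + c2#ρ)`.
Everything here is `Measure.map_apply`, `lintegral_map`, `lintegral_add_measure`,
`lintegral_smul_measure`, and `3⁻¹ + 6⁻¹ * 4 = 1` in `ℝ≥0∞`.
-/

namespace Vale.Agent.Lib.P121

open MeasureTheory
open scoped ENNReal

/-- the five blob measure. -/
noncomputable def mix (ρ : Measure E3) (b1 c1 b2 c2 : E3 → E3) : Measure E3 :=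
  (3 : ℝ≥0∞)⁻¹ • ρ + (6 : ℝ≥0∞)⁻¹ • (ρ.map b1 + ρ.map c1 + ρ.map b2 + ρ.map c2)

theorem measurable_coulomb : Measurable (fun p : E3 × E3 × E3 => coulomb p.1 p.2.1 p.2.2) := by
  unfold coulomb
  fun_prop

theorem coulomb_rot (x y z : E3) : coulomb y z x = coulomb x y z := by
  unfold coulomb
  rw [dist_comm y x, dist_comm z x]
  ring

theorem coulomb_rot' (x y z : E3) : coulomb z x y = coulomb x y z := by
  unfold coulomb
  rw [dist_comm z x, dist_comm z y]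
  ring

theorem mix_swap (ρ : Measure E3) (b1 c1 b2 c2 : E3 → E3) :
    mix ρ b2 c2 b1 c1 = mix ρ b1 c1 b2 c2 := by
  unfold mix
  congr 2
  abel

variable (ρ : Measure E3) (b1 c1 b2 c2 : E3 → E3)
  (hb1 : Measurable b1) (hc1 : Measurable c1) (hb2 : Measurable b2) (hc2 : Measurable c2)

include hb1 hc1 hb2 hc2

theorem mix_apply (A : Set E3) (hA : MeasurableSet A) :
    mix ρ b1 c1 b2 c2 A =
      3⁻¹ * ρ A + 6⁻¹ * (ρ (b1 ⁻¹' A) + ρ (c1 ⁻¹' A) + ρ (b2 ⁻¹' A) + ρ (c2 ⁻¹' A)) := by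
  unfold mix
  simp only [Measure.add_apply, Measure.smul_apply, smul_eq_mul]
  rw [Measure.map_apply hb1 hA, Measure.map_apply hc1 hA, Measure.map_apply hb2 hA,
    Measure.map_apply hc2 hA]

theorem lintegral_mix (f : E3 → ℝ≥0∞) (hf : Measurable f) :
    ∫⁻ x, f x ∂(mix ρ b1 c1 b2 c2) =
      3⁻¹ * ∫⁻ a, f a ∂ρ + 6⁻¹ * (∫⁻ a, f (b1 a) ∂ρ + ∫⁻ a, f (c1 a) ∂ρ + ∫⁻ a, f (b2 a) ∂ρ
        + ∫⁻ a, f (c2 a) ∂ρ) := by
  unfold mix
  rw [lintegral_add_measure, lintegral_smul_measure, lintegral_smul_measure,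
    lintegral_add_measure, lintegral_add_measure, lintegral_add_measure,
    lintegral_map hf hb1, lintegral_map hf hc1, lintegral_map hf hb2, lintegral_map hf hc2]
  simp only [smul_eq_mul]

theorem mix_prob [IsProbabilityMeasure ρ] : IsProbabilityMeasure (mix ρ b1 c1 b2 c2) := by
  constructor
  rw [mix_apply ρ b1 c1 b2 c2 hb1 hc1 hb2 hc2 Set.univ MeasurableSet.univ]
  simp only [Set.preimage_univ, measure_univ, mul_one]
  have h6 : (6 : ℝ≥0∞)⁻¹ * (1 + 1 + 1 + 1) = 2 * 3⁻¹ := by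
    have h : (6 : ℝ≥0∞) = 2 * 3 := by norm_num
    have h4 : (1 + 1 + 1 + 1 : ℝ≥0∞) = 2 * 2 := by norm_num
    rw [h, h4, ENNReal.mul_inv (by norm_num) (by norm_num)]
    calc (2 : ℝ≥0∞)⁻¹ * 3⁻¹ * (2 * 2) = (2⁻¹ * 2) * (2 * 3⁻¹) := by ring
      _ = 2 * 3⁻¹ := by rw [ENNReal.inv_mul_cancel (by norm_num) (by norm_num), one_mul]
  rw [h6]
  calc (3 : ℝ≥0∞)⁻¹ + 2 * 3⁻¹ = 3⁻¹ * 3 := by ring
    _ = 1 := ENNReal.inv_mul_cancel (by norm_num) (by norm_num)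

/-- `mix` is carried by any measurable set containing the five blobs. -/
theorem mix_compl_null (hρ : ρ U0ᶜ = 0) (S : Set E3) (hS : MeasurableSet S) (hU0S : U0 ⊆ S)
    (hb1S : ∀ a ∈ U0, b1 a ∈ S) (hc1S : ∀ a ∈ U0, c1 a ∈ S) (hb2S : ∀ a ∈ U0, b2 a ∈ S)
    (hc2S : ∀ a ∈ U0, c2 a ∈ S) : mix ρ b1 c1 b2 c2 Sᶜ = 0 := by
  rw [mix_apply ρ b1 c1 b2 c2 hb1 hc1 hb2 hc2 Sᶜ hS.compl]
  have key : ∀ g : E3 → E3, (∀ a ∈ U0, g a ∈ S) → ρ (g ⁻¹' Sᶜ) = 0 := by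
    intro g hg
    refine measure_mono_null ?_ hρ
    intro a ha haU
    exact ha (hg a haU)
  rw [key b1 hb1S, key c1 hc1S, key b2 hb2S, key c2 hc2S,
    measure_mono_null (Set.compl_subset_compl.mpr hU0S) hρ]
  simp

omit hb1 hc1 hb2 hc2

theorem le_three_mix (A : Set E3) : ρ A ≤ 3 * mix ρ b1 c1 b2 c2 A := by
  unfold mix
  simp only [Measure.add_apply, Measure.smul_apply, smul_eq_mul]
  calc ρ A = 3 * (3⁻¹ * ρ A) := by
        rw [← mul_assoc, ENNReal.mul_inv_cancel (by norm_num) (by norm_num), one_mul]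
    _ ≤ _ := by gcongr; exact le_self_add

theorem ae_of_ae_mix {p : E3 → Prop} (h : ∀ᵐ x ∂(mix ρ b1 c1 b2 c2), p x) : ∀ᵐ x ∂ρ, p x := by
  rw [ae_iff] at h ⊢
  have := le_three_mix ρ b1 c1 b2 c2 {a | ¬p a}
  rw [h, mul_zero] at this
  exact le_antisymm this zero_le

end Vale.Agent.Lib.P121
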