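import Vale.Agent.Lib.P121.Potential

/-!
# P121 task G3a: symmetry of `cR`, and strict inequality on the non-contact types

`noncontact_strict`: `upot = kpot` on the regions (`upot_eq`), `kpot ≤ utab/100` (`kpot_bounds`),
`gtab/100 ≤ ‖.‖⁻¹` for the three pairs (`pair_lower` with `region_near`), and `table_check`
(cast the inequality of naturals to `ℝ` with `Nat.cast_lt` / `exact_mod_cast`).
-/

namespace Vale.Agent.Lib.P121

theorem cR_swap12 (x y z : E3) : cR y x z = cR x y z := by
  unfold cR
  rw [norm_sub_rev y x]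
  ring

theorem cR_swap23 (x y z : E3) : cR x z y = cR x y z := by
  unfold cR
  rw [norm_sub_rev z y]
  ring

variable {e1 e2 : E3} (B1 : Branch e1) (B2 : Branch e2)

theorem noncontact_strict (he1 : ‖e1‖ = 1) (he2 : ‖e2‖ = 1) (h12 : inner ℝ e1 e2 = 0)
    (i j k : Kind) (hc : contact i j k = false) (x y z : E3)
    (hx : x ∈ region B1 B2 i) (hy : y ∈ region B1 B2 j) (hz : z ∈ region B1 B2 k)
    (hxy : x ≠ y) (hxz : x ≠ z) (hyz : y ≠ z) :
    upot B1 B2 x + upot B1 B2 y + upot B1 B2 z < cR x y z := by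
  rw [upot_eq B1 B2 he1 he2 h12 i x hx, upot_eq B1 B2 he1 he2 h12 j y hy,
    upot_eq B1 B2 he1 he2 h12 k z hz]
  have ux := (kpot_bounds B1 B2 he1 he2 i x hx).2
  have uy := (kpot_bounds B1 B2 he1 he2 j y hy).2
  have uz := (kpot_bounds B1 B2 he1 he2 k z hz).2
  have nx := region_near B1 B2 i x hx
  have ny := region_near B1 B2 j y hy
  have nz := region_near B1 B2 k z hz
  have g1 := pair_lower he1 he2 h12 i j x y nx ny hxy
  have g2 := pair_lower he1 he2 h12 i k x z nx nz hxz
  have g3 := pair_lower he1 he2 h12 j k y z ny nz hyz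
  have ht : ((utab i : ℝ) + utab j + utab k) < (gtab i j : ℝ) + gtab i k + gtab j k := by
    exact_mod_cast table_check i j k hc
  unfold cR
  linarith

end Vale.Agent.Lib.P121
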