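import Vale.Agent.Lib.P121.Mix

/-!
# P121 task A2: the explicit coupling and the upper bound for the Kantorovich value

Take `π0 = (1/6) • ∑` of the six measures `ρ.map τ`, `τ` one of
`a ↦ (a, b1 a, c1 a)`, `(b1 a, c1 a, a)`, `(c1 a, a, b1 a)` and the same with `b2, c2`.
Each of the three marginals is `(1/6)(ρ + b1#ρ + c1#ρ + ρ + b2#ρ + c2#ρ) = mix` (`Measure.map_map`,
`Measure.map_add`, `Measure.map_smul`; `6⁻¹ + 6⁻¹ = 3⁻¹`).  The cost is, by `lintegral_map`,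
`coulomb_rot`, `coulomb_rot'`, at most
`(1/6) (3 ∫ (U a + U (b1 a) + U (c1 a)) + 3 ∫ (U a + U (b2 a) + U (c2 a)))`, which equals
`3 ∫ U ∂mix` by `lintegral_mix`.  Conclude with `iInf₂_le`.
-/

namespace Vale.Agent.Lib.P121

open MeasureTheory
open scoped ENNReal

theorem inv_three_eq : (3 : ℝ≥0∞)⁻¹ = 2 * 6⁻¹ := by
  rw [show (6 : ℝ≥0∞) = 2 * 3 by norm_num, ENNReal.mul_inv (by simp) (by simp), ← mul_assoc,
    ENNReal.mul_inv_cancel (by simp) (by simp), one_mul]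

theorem kantorovich_mix_le (ρ : Measure E3) (b1 c1 b2 c2 : E3 → E3)
    (hb1 : Measurable b1) (hc1 : Measurable c1) (hb2 : Measurable b2) (hc2 : Measurable c2)
    (U : E3 → ℝ≥0∞) (hU : Measurable U)
    (H2a : ∀ᵐ a ∂ρ, coulomb a (b1 a) (c1 a) ≤ U a + U (b1 a) + U (c1 a))
    (H2b : ∀ᵐ a ∂ρ, coulomb a (b2 a) (c2 a) ≤ U a + U (b2 a) + U (c2 a)) :
    kantorovich (mix ρ b1 c1 b2 c2) ≤ 3 * ∫⁻ x, U x ∂(mix ρ b1 c1 b2 c2) := by
  have m1 : Measurable (fun a : E3 => ((a, b1 a, c1 a) : E3 × E3 × E3)) :=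
    measurable_id.prodMk (hb1.prodMk hc1)
  have m2 : Measurable (fun a : E3 => ((b1 a, c1 a, a) : E3 × E3 × E3)) :=
    hb1.prodMk (hc1.prodMk measurable_id)
  have m3 : Measurable (fun a : E3 => ((c1 a, a, b1 a) : E3 × E3 × E3)) :=
    hc1.prodMk (measurable_id.prodMk hb1)
  have m4 : Measurable (fun a : E3 => ((a, b2 a, c2 a) : E3 × E3 × E3)) :=
    measurable_id.prodMk (hb2.prodMk hc2)
  have m5 : Measurable (fun a : E3 => ((b2 a, c2 a, a) : E3 × E3 × E3)) :=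
    hb2.prodMk (hc2.prodMk measurable_id)
  have m6 : Measurable (fun a : E3 => ((c2 a, a, b2 a) : E3 × E3 × E3)) :=
    hc2.prodMk (measurable_id.prodMk hb2)
  have p1 : Measurable (fun p : E3 × E3 × E3 => p.1) := measurable_fst
  have p2 : Measurable (fun p : E3 × E3 × E3 => p.2.1) := measurable_fst.comp measurable_snd
  have p3 : Measurable (fun p : E3 × E3 × E3 => p.2.2) := measurable_snd.comp measurable_snd
  obtain ⟨π0, hπ0⟩ : ∃ π0 : Measure (E3 × E3 × E3), π0 = (6 : ℝ≥0∞)⁻¹ •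
      (ρ.map (fun a : E3 => ((a, b1 a, c1 a) : E3 × E3 × E3))
        + ρ.map (fun a : E3 => ((b1 a, c1 a, a) : E3 × E3 × E3))
        + ρ.map (fun a : E3 => ((c1 a, a, b1 a) : E3 × E3 × E3))
        + ρ.map (fun a : E3 => ((a, b2 a, c2 a) : E3 × E3 × E3))
        + ρ.map (fun a : E3 => ((b2 a, c2 a, a) : E3 × E3 × E3))
        + ρ.map (fun a : E3 => ((c2 a, a, b2 a) : E3 × E3 × E3))) := ⟨_, rfl⟩
  have hid : ρ.map (fun a : E3 => a) = ρ := Measure.map_id'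
  have hcoup : IsCoupling (mix ρ b1 c1 b2 c2) π0 := by
    refine ⟨?_, ?_, ?_⟩
    · rw [hπ0, Measure.map_smul, Measure.map_add _ _ p1, Measure.map_add _ _ p1,
        Measure.map_add _ _ p1, Measure.map_add _ _ p1, Measure.map_add _ _ p1,
        Measure.map_map p1 m1, Measure.map_map p1 m2, Measure.map_map p1 m3,
        Measure.map_map p1 m4, Measure.map_map p1 m5, Measure.map_map p1 m6]
      simp only [Function.comp_def, hid]
      ext A hA
      simp only [mix, Measure.smul_apply, Measure.add_apply, smul_eq_mul, inv_three_eq]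
      ring
    · rw [hπ0, Measure.map_smul, Measure.map_add _ _ p2, Measure.map_add _ _ p2,
        Measure.map_add _ _ p2, Measure.map_add _ _ p2, Measure.map_add _ _ p2,
        Measure.map_map p2 m1, Measure.map_map p2 m2, Measure.map_map p2 m3,
        Measure.map_map p2 m4, Measure.map_map p2 m5, Measure.map_map p2 m6]
      simp only [Function.comp_def, hid]
      ext A hA
      simp only [mix, Measure.smul_apply, Measure.add_apply, smul_eq_mul, inv_three_eq]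
      ring
    · rw [hπ0, Measure.map_smul, Measure.map_add _ _ p3, Measure.map_add _ _ p3,
        Measure.map_add _ _ p3, Measure.map_add _ _ p3, Measure.map_add _ _ p3,
        Measure.map_map p3 m1, Measure.map_map p3 m2, Measure.map_map p3 m3,
        Measure.map_map p3 m4, Measure.map_map p3 m5, Measure.map_map p3 m6]
      simp only [Function.comp_def, hid]
      ext A hA
      simp only [mix, Measure.smul_apply, Measure.add_apply, smul_eq_mul, inv_three_eq]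
      ring
  have hA : ∫⁻ a, coulomb a (b1 a) (c1 a) ∂ρ ≤
      ∫⁻ a, U a ∂ρ + ∫⁻ a, U (b1 a) ∂ρ + ∫⁻ a, U (c1 a) ∂ρ := by
    calc ∫⁻ a, coulomb a (b1 a) (c1 a) ∂ρ ≤ ∫⁻ a, (U a + U (b1 a) + U (c1 a)) ∂ρ :=
          lintegral_mono_ae H2a
      _ = ∫⁻ a, U a ∂ρ + ∫⁻ a, U (b1 a) ∂ρ + ∫⁻ a, U (c1 a) ∂ρ := by
          have h1 : Measurable (fun a => U a + U (b1 a)) := hU.add (hU.comp hb1)
          rw [lintegral_add_left h1, lintegral_add_left hU]
  have hB : ∫⁻ a, coulomb a (b2 a) (c2 a) ∂ρ ≤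
      ∫⁻ a, U a ∂ρ + ∫⁻ a, U (b2 a) ∂ρ + ∫⁻ a, U (c2 a) ∂ρ := by
    calc ∫⁻ a, coulomb a (b2 a) (c2 a) ∂ρ ≤ ∫⁻ a, (U a + U (b2 a) + U (c2 a)) ∂ρ :=
          lintegral_mono_ae H2b
      _ = ∫⁻ a, U a ∂ρ + ∫⁻ a, U (b2 a) ∂ρ + ∫⁻ a, U (c2 a) ∂ρ := by
          have h1 : Measurable (fun a => U a + U (b2 a)) := hU.add (hU.comp hb2)
          rw [lintegral_add_left h1, lintegral_add_left hU]
  have hcost : ∫⁻ p, coulomb p.1 p.2.1 p.2.2 ∂π0 =
      6⁻¹ * (3 * ∫⁻ a, coulomb a (b1 a) (c1 a) ∂ρ + 3 * ∫⁻ a, coulomb a (b2 a) (c2 a) ∂ρ) := by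
    rw [hπ0, lintegral_smul_measure, lintegral_add_measure, lintegral_add_measure,
      lintegral_add_measure, lintegral_add_measure, lintegral_add_measure,
      lintegral_map measurable_coulomb m1, lintegral_map measurable_coulomb m2,
      lintegral_map measurable_coulomb m3, lintegral_map measurable_coulomb m4,
      lintegral_map measurable_coulomb m5, lintegral_map measurable_coulomb m6]
    simp only [coulomb_rot, smul_eq_mul]
    ring
  calc kantorovich (mix ρ b1 c1 b2 c2) ≤ ∫⁻ p, coulomb p.1 p.2.1 p.2.2 ∂π0 :=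
        iInf₂_le π0 hcoup
    _ = 6⁻¹ * (3 * ∫⁻ a, coulomb a (b1 a) (c1 a) ∂ρ
          + 3 * ∫⁻ a, coulomb a (b2 a) (c2 a) ∂ρ) := hcost
    _ ≤ 6⁻¹ * (3 * (∫⁻ a, U a ∂ρ + ∫⁻ a, U (b1 a) ∂ρ + ∫⁻ a, U (c1 a) ∂ρ)
          + 3 * (∫⁻ a, U a ∂ρ + ∫⁻ a, U (b2 a) ∂ρ + ∫⁻ a, U (c2 a) ∂ρ)) := by
        gcongr
    _ = 3 * ∫⁻ x, U x ∂(mix ρ b1 c1 b2 c2) := by
        rw [lintegral_mix ρ b1 c1 b2 c2 hb1 hc1 hb2 hc2 U hU, inv_three_eq]
        ring

end Vale.Agent.Lib.P121
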