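import Vale.Agent.Lib.P121.Branch
import Vale.Agent.Lib.P121.Kinds

/-!
# P121 task G2: the five regions, their union `Sset`, and the global potential `upot`

`upot` is the sum of the indicators of the regions times the local potentials; the regions are
pairwise disjoint (`region_near` + `pair_ne`), so `upot = kpot i` on `region i`
(`Finset.sum_eq_single i`).  Measurability of `γ '' U0`:
`measurableSet_U0.image_of_measurable_injOn B.γ_meas (B.γ_injOn he)`.
Bounds: `psi ∈ [1.49, 1.5]` on `U0`; on `closedBall e eta`: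
`|uV e y - 1/2| ≤ (5/4) eta + 500 eta^2 = 0.00175`; `B.w_bounds` on `γ '' U0`.
-/

namespace Vale.Agent.Lib.P121

open MeasureTheory

variable {e1 e2 : E3} (B1 : Branch e1) (B2 : Branch e2)

/-- the five regions. -/
def region : Kind → Set E3
  | .O => U0
  | .V1 => Metric.closedBall e1 eta
  | .W1 => B1.γ '' U0
  | .V2 => Metric.closedBall e2 eta
  | .W2 => B2.γ '' U0

/-- the local potentials. -/
noncomputable def kpot : Kind → E3 → ℝ
  | .O => psi
  | .V1 => uV e1
  | .W1 => B1.w
  | .V2 => uV e2
  | .W2 => B2.w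

/-- the union of the regions. -/
def Sset : Set E3 := ⋃ i, region B1 B2 i

/-- the global potential. -/
noncomputable def upot (x : E3) : ℝ := ∑ i : Kind, (region B1 B2 i).indicator (kpot B1 B2 i) x

theorem region_near (i : Kind) (x : E3) (hx : x ∈ region B1 B2 i) :
    ‖x - base e1 e2 i‖ ≤ eta := by
  cases i with
  | O =>
    have h : ‖x‖ ≤ r0 := mem_U0.1 hx
    simpa [base] using h.trans r0_le_eta
  | V1 => exact mem_closedBall_iff_norm.1 hx
  | W1 =>
    obtain ⟨a, ha, rfl⟩ := hx
    simpa [base] using B1.γ_near a ha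
  | V2 => exact mem_closedBall_iff_norm.1 hx
  | W2 =>
    obtain ⟨a, ha, rfl⟩ := hx
    simpa [base] using B2.γ_near a ha

theorem measurableSet_region (he1 : ‖e1‖ = 1) (he2 : ‖e2‖ = 1) (i : Kind) :
    MeasurableSet (region B1 B2 i) := by
  cases i with
  | O => exact measurableSet_U0
  | V1 => exact Metric.isClosed_closedBall.measurableSet
  | W1 => exact measurableSet_U0.image_of_measurable_injOn B1.γ_meas (B1.γ_injOn he1)
  | V2 => exact Metric.isClosed_closedBall.measurableSet
  | W2 => exact measurableSet_U0.image_of_measurable_injOn B2.γ_meas (B2.γ_injOn he2)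

theorem measurableSet_Sset (he1 : ‖e1‖ = 1) (he2 : ‖e2‖ = 1) : MeasurableSet (Sset B1 B2) :=
  MeasurableSet.iUnion fun i => measurableSet_region B1 B2 he1 he2 i

theorem measurable_psi : Measurable psi := by
  have : Continuous psi := by unfold psi; fun_prop
  exact this.measurable

theorem measurable_uV (e : E3) : Measurable (uV e) := by
  have : Continuous (uV e) := by unfold uV; fun_prop
  exact this.measurable

theorem measurable_kpot (i : Kind) : Measurable (kpot B1 B2 i) := by
  cases i with
  | O => exact measurable_psi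
  | V1 => exact measurable_uV e1
  | W1 => exact B1.w_meas
  | V2 => exact measurable_uV e2
  | W2 => exact B2.w_meas

theorem measurable_upot (he1 : ‖e1‖ = 1) (he2 : ‖e2‖ = 1) : Measurable (upot B1 B2) := by
  unfold upot
  refine Finset.measurable_sum _ fun i _ => ?_
  exact (measurable_kpot B1 B2 i).indicator (measurableSet_region B1 B2 he1 he2 i)

theorem upot_eq (he1 : ‖e1‖ = 1) (he2 : ‖e2‖ = 1) (h12 : inner ℝ e1 e2 = 0) (i : Kind) (x : E3)
    (hx : x ∈ region B1 B2 i) : upot B1 B2 x = kpot B1 B2 i x := by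
  unfold upot
  rw [Finset.sum_eq_single i]
  · exact Set.indicator_of_mem hx _
  · intro j _ hji
    refine Set.indicator_of_notMem ?_ _
    intro hxj
    exact pair_ne he1 he2 h12 j i hji x x (region_near B1 B2 j x hxj)
      (region_near B1 B2 i x hx) rfl
  · intro h
    exact absurd (Finset.mem_univ i) h

theorem psi_bounds (x : E3) (hx : x ∈ U0) : 0 ≤ psi x ∧ psi x ≤ 150 / 100 := by
  have h : ‖x‖ ≤ r0 := mem_U0.1 hx
  have h0 := norm_nonneg x
  unfold r0 at h
  unfold psi
  constructor <;> nlinarith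

theorem uV_bounds (e : E3) (he : ‖e‖ = 1) (x : E3) (hx : ‖x - e‖ ≤ eta) :
    0 ≤ uV e x ∧ uV e x ≤ 51 / 100 := by
  have h0 := norm_nonneg (x - e)
  have h1 := abs_real_inner_le_norm e (x - e)
  rw [he, one_mul] at h1
  have h2 := abs_le.1 h1
  unfold eta at hx
  unfold uV
  constructor <;> nlinarith [h2.1, h2.2]

theorem kpot_bounds (he1 : ‖e1‖ = 1) (he2 : ‖e2‖ = 1) (i : Kind) (x : E3)
    (hx : x ∈ region B1 B2 i) : 0 ≤ kpot B1 B2 i x ∧ kpot B1 B2 i x ≤ (utab i : ℝ) / 100 := by
  cases i with
  | O => simpa [kpot, utab] using psi_bounds x hx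
  | V1 => simpa [kpot, utab] using uV_bounds e1 he1 x (mem_closedBall_iff_norm.1 hx)
  | W1 =>
    obtain ⟨a, ha, rfl⟩ := hx
    have := B1.w_bounds he1 a ha
    simp only [kpot, utab]
    constructor
    · linarith [this.1]
    · have := this.2; norm_num at this ⊢; linarith
  | V2 => simpa [kpot, utab] using uV_bounds e2 he2 x (mem_closedBall_iff_norm.1 hx)
  | W2 =>
    obtain ⟨a, ha, rfl⟩ := hx
    have := B2.w_bounds he2 a ha
    simp only [kpot, utab]
    constructor
    · linarith [this.1]
    · have := this.2; norm_num at this ⊢; linarith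

theorem upot_nonneg (he1 : ‖e1‖ = 1) (he2 : ‖e2‖ = 1) (x : E3) : 0 ≤ upot B1 B2 x := by
  unfold upot
  refine Finset.sum_nonneg fun i _ => ?_
  by_cases hx : x ∈ region B1 B2 i
  · rw [Set.indicator_of_mem hx]
    exact (kpot_bounds B1 B2 he1 he2 i x hx).1
  · rw [Set.indicator_of_notMem hx]

theorem upot_le_two (he1 : ‖e1‖ = 1) (he2 : ‖e2‖ = 1) (h12 : inner ℝ e1 e2 = 0) (x : E3) :
    upot B1 B2 x ≤ 2 := by
  by_cases h : ∃ i, x ∈ region B1 B2 i
  · obtain ⟨i, hx⟩ := h
    rw [upot_eq B1 B2 he1 he2 h12 i x hx]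
    refine (kpot_bounds B1 B2 he1 he2 i x hx).2.trans ?_
    cases i <;> simp only [utab] <;> norm_num
  · push Not at h
    unfold upot
    rw [Finset.sum_eq_zero]
    · norm_num
    · intro i _
      exact Set.indicator_of_notMem (h i) _

end Vale.Agent.Lib.P121
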