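import Vale.Agent.Lib.P121.NonContact

/-!
# P121 task G3b: the global inequality and the contact set, real valued version

Pick kinds `i j k` with `x ∈ region i` etc. (`Set.mem_iUnion`).  If `contact i j k = false` use
`noncontact_strict`.  Otherwise `(i,j,k)` is one of the 12 contact types
(`cases i <;> cases j <;> cases k <;> simp [contact] at hc`); rewrite `upot` by `upot_eq`, permute
with `cR_swap12`, `cR_swap23` and use `Branch.core` (for `B1` resp. `B2`); membership in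
`region .V1` is `Metric.mem_closedBall` + `dist_eq_norm`.
For `real_contact`, `x ∈ U0 = region .O`; if `y ∈ region j`, `z ∈ region k` with
`contact .O j k = false` the hypothesis contradicts `noncontact_strict`; the four remaining cases
`(V1,W1), (W1,V1), (V2,W2), (W2,V2)` follow from the second half of `Branch.core`.
`real_eq1`: `upot_eq` three times and `B1.w_eq`; `B1.β a ∈ region .V1` by `B1.β_near`.
-/

namespace Vale.Agent.Lib.P121

theorem cR_rotA (x y z : E3) : cR z x y = cR x y z := by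
  unfold cR
  rw [norm_sub_rev z x, norm_sub_rev z y]
  ring

theorem cR_rotB (x y z : E3) : cR y z x = cR x y z := by
  unfold cR
  rw [norm_sub_rev y x, norm_sub_rev z x]
  ring

theorem cR_rev (x y z : E3) : cR z y x = cR x y z := by
  unfold cR
  rw [norm_sub_rev z y, norm_sub_rev z x, norm_sub_rev y x]
  ring

variable {e1 e2 : E3} (B1 : Branch e1) (B2 : Branch e2)

theorem core_one (he1 : ‖e1‖ = 1) (he2 : ‖e2‖ = 1) (h12 : inner ℝ e1 e2 = 0) (x y z : E3)
    (hx : x ∈ region B1 B2 Kind.O) (hy : y ∈ region B1 B2 Kind.V1)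
    (hz : z ∈ region B1 B2 Kind.W1) :
    upot B1 B2 x + upot B1 B2 y + upot B1 B2 z ≤ cR x y z ∧
      (cR x y z ≤ upot B1 B2 x + upot B1 B2 y + upot B1 B2 z → z = B1.γ x) := by
  rw [upot_eq B1 B2 he1 he2 h12 _ x hx, upot_eq B1 B2 he1 he2 h12 _ y hy,
    upot_eq B1 B2 he1 he2 h12 _ z hz]
  have hy' : ‖y - e1‖ ≤ eta := by
    have : y ∈ Metric.closedBall e1 eta := hy
    rwa [Metric.mem_closedBall, dist_eq_norm] at this
  exact B1.core he1 x y z hx hy' hz

theorem core_two (he1 : ‖e1‖ = 1) (he2 : ‖e2‖ = 1) (h12 : inner ℝ e1 e2 = 0) (x y z : E3)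
    (hx : x ∈ region B1 B2 Kind.O) (hy : y ∈ region B1 B2 Kind.V2)
    (hz : z ∈ region B1 B2 Kind.W2) :
    upot B1 B2 x + upot B1 B2 y + upot B1 B2 z ≤ cR x y z ∧
      (cR x y z ≤ upot B1 B2 x + upot B1 B2 y + upot B1 B2 z → z = B2.γ x) := by
  rw [upot_eq B1 B2 he1 he2 h12 _ x hx, upot_eq B1 B2 he1 he2 h12 _ y hy,
    upot_eq B1 B2 he1 he2 h12 _ z hz]
  have hy' : ‖y - e2‖ ≤ eta := by
    have : y ∈ Metric.closedBall e2 eta := hy
    rwa [Metric.mem_closedBall, dist_eq_norm] at this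
  exact B2.core he2 x y z hx hy' hz

theorem real_ineq (he1 : ‖e1‖ = 1) (he2 : ‖e2‖ = 1) (h12 : inner ℝ e1 e2 = 0) (x y z : E3)
    (hx : x ∈ Sset B1 B2) (hy : y ∈ Sset B1 B2) (hz : z ∈ Sset B1 B2)
    (hxy : x ≠ y) (hxz : x ≠ z) (hyz : y ≠ z) :
    upot B1 B2 x + upot B1 B2 y + upot B1 B2 z ≤ cR x y z := by
  obtain ⟨i, hi⟩ := Set.mem_iUnion.mp hx
  obtain ⟨j, hj⟩ := Set.mem_iUnion.mp hy
  obtain ⟨k, hk⟩ := Set.mem_iUnion.mp hz
  by_cases hc : contact i j k = false
  · exact (noncontact_strict B1 B2 he1 he2 h12 i j k hc x y z hi hj hk hxy hxz hyz).le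
  · have c1 := core_one B1 B2 he1 he2 h12
    have c2 := core_two B1 B2 he1 he2 h12
    have s1 := cR_swap12 x y z
    have s2 := cR_swap23 x y z
    have s3 := cR_rotA x y z
    have s4 := cR_rotB x y z
    have s5 := cR_rev x y z
    cases i <;> cases j <;> cases k <;> simp [contact] at hc
    all_goals first
      | exact (c1 x y z hi hj hk).1
      | exact (c2 x y z hi hj hk).1
      | (have := (c1 x z y hi hk hj).1; linarith)
      | (have := (c2 x z y hi hk hj).1; linarith)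
      | (have := (c1 y x z hj hi hk).1; linarith)
      | (have := (c2 y x z hj hi hk).1; linarith)
      | (have := (c1 y z x hj hk hi).1; linarith)
      | (have := (c2 y z x hj hk hi).1; linarith)
      | (have := (c1 z x y hk hi hj).1; linarith)
      | (have := (c2 z x y hk hi hj).1; linarith)
      | (have := (c1 z y x hk hj hi).1; linarith)
      | (have := (c2 z y x hk hj hi).1; linarith)

theorem real_contact (he1 : ‖e1‖ = 1) (he2 : ‖e2‖ = 1) (h12 : inner ℝ e1 e2 = 0) (x y z : E3)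
    (hx : x ∈ U0) (hy : y ∈ Sset B1 B2) (hz : z ∈ Sset B1 B2)
    (hxy : x ≠ y) (hxz : x ≠ z) (hyz : y ≠ z)
    (h : cR x y z ≤ upot B1 B2 x + upot B1 B2 y + upot B1 B2 z) :
    y = B1.γ x ∨ z = B1.γ x ∨ y = B2.γ x ∨ z = B2.γ x := by
  have hi : x ∈ region B1 B2 Kind.O := hx
  obtain ⟨j, hj⟩ := Set.mem_iUnion.mp hy
  obtain ⟨k, hk⟩ := Set.mem_iUnion.mp hz
  by_cases hc : contact Kind.O j k = false
  · exact absurd h
      (not_le.mpr (noncontact_strict B1 B2 he1 he2 h12 _ j k hc x y z hi hj hk hxy hxz hyz))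
  · have c1 := core_one B1 B2 he1 he2 h12
    have c2 := core_two B1 B2 he1 he2 h12
    have s2 := cR_swap23 x y z
    cases j <;> cases k <;> simp [contact] at hc
    · exact Or.inr (Or.inl ((c1 x y z hi hj hk).2 h))
    · exact Or.inl ((c1 x z y hi hk hj).2 (by linarith))
    · exact Or.inr (Or.inr (Or.inr ((c2 x y z hi hj hk).2 h)))
    · exact Or.inr (Or.inr (Or.inl ((c2 x z y hi hk hj).2 (by linarith))))

theorem real_eq1 (he1 : ‖e1‖ = 1) (he2 : ‖e2‖ = 1) (h12 : inner ℝ e1 e2 = 0) (a : E3)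
    (ha : a ∈ U0) :
    cR a (B1.β a) (B1.γ a) = upot B1 B2 a + upot B1 B2 (B1.β a) + upot B1 B2 (B1.γ a) := by
  have hi : a ∈ region B1 B2 Kind.O := ha
  have hj : B1.β a ∈ region B1 B2 Kind.V1 := by
    change B1.β a ∈ Metric.closedBall e1 eta
    rw [Metric.mem_closedBall, dist_eq_norm]
    exact B1.β_near a ha
  have hk : B1.γ a ∈ region B1 B2 Kind.W1 := Set.mem_image_of_mem _ ha
  rw [upot_eq B1 B2 he1 he2 h12 _ _ hi, upot_eq B1 B2 he1 he2 h12 _ _ hj,
    upot_eq B1 B2 he1 he2 h12 _ _ hk]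
  change _ = psi a + uV e1 (B1.β a) + B1.w (B1.γ a)
  rw [B1.w_eq a ha]
  ring

theorem real_eq2 (he1 : ‖e1‖ = 1) (he2 : ‖e2‖ = 1) (h12 : inner ℝ e1 e2 = 0) (a : E3)
    (ha : a ∈ U0) :
    cR a (B2.β a) (B2.γ a) = upot B1 B2 a + upot B1 B2 (B2.β a) + upot B1 B2 (B2.γ a) := by
  have hi : a ∈ region B1 B2 Kind.O := ha
  have hj : B2.β a ∈ region B1 B2 Kind.V2 := by
    change B2.β a ∈ Metric.closedBall e2 eta
    rw [Metric.mem_closedBall, dist_eq_norm]
    exact B2.β_near a ha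
  have hk : B2.γ a ∈ region B1 B2 Kind.W2 := Set.mem_image_of_mem _ ha
  rw [upot_eq B1 B2 he1 he2 h12 _ _ hi, upot_eq B1 B2 he1 he2 h12 _ _ hj,
    upot_eq B1 B2 he1 he2 h12 _ _ hk]
  change _ = psi a + uV e2 (B2.β a) + B2.w (B2.γ a)
  rw [B2.w_eq a ha]
  ring

end Vale.Agent.Lib.P121
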