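import Vale.Agent.Lib.P121.BranchPre

/-!
# P121 task B1: measurable solution maps

Choose `β0 a, γ0 a` by `exists_sol` for `a ∈ U0` (`Classical.choose`), and put
`β = U0.piecewise β0 0` (or `if a ∈ U0 then .. else 0`), same for `γ`.
By `sol_diff` both are Lipschitz on `U0` (`‖β a - β a'‖ ≤ ‖a-a'‖`, `‖γ a - γ a'‖ ≤ 600‖a-a'‖`), so
`ContinuousOn` on `U0` (`LipschitzOnWith.continuousOn`), and
`ContinuousOn.measurable_piecewise` (with `measurableSet_U0`) gives measurability.
(The proof is in `BranchPre.lean`.)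
-/

namespace Vale.Agent.Lib.P121

theorem exists_sol_maps (e : E3) (he : ‖e‖ = 1) :
    ∃ β γ : E3 → E3, Measurable β ∧ Measurable γ ∧ ∀ a ∈ U0, IsSol e a (β a) (γ a) :=
  exists_sol_maps_pre e he

end Vale.Agent.Lib.P121
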