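import Vale.Agent.Lib.P121.FieldLip
import Vale.Agent.Lib.P121.FieldAnti

/-!
# P121 task S1: the explicit solution `c = Cmap a b` of equation (E1)

`Cmap a b = a - Einv (-200 a - Ef (a-b))`.  Let `‖e‖ = 1`, `‖a‖ ≤ r0`, `‖b-e‖ ≤ r0`,
`w = -200 a - Ef (a-b)`.
* `w + e = -200 a - (Ef (a-b) - Ef (-e))` (as `Ef (-e) = e`), so by `Ef_lip` with `d = 0.998`
  (`2/d^3 ≤ 2.02`): `‖w + e‖ ≤ 200 r0 + 2.02 * 2 r0 ≤ 205 r0`; in particular `w ≠ 0`,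
  `0.999 ≤ ‖w‖ ≤ 1.001`, and `‖Einv w‖ = 1/sqrt ‖w‖` lies in `[0.998, 1.002]`.
* `Ef (a - Cmap a b) = Ef (Einv w) = w`  (this is (E1)).
* `‖Einv w - e‖ = ‖Einv w - Einv (-e)‖ ≤ 2.6 ‖w + e‖` by `Ef_antilip` with `d = 0.998`, `D = 1.002`
  (`D^3 + 3D^4/(2d) ≤ 2.6`) and `Ef_Einv`; so `‖Cmap a b + e‖ ≤ r0 + 2.6 * 205 r0 ≤ 540 r0`.
* in the same way `‖Cmap a b - Cmap a b'‖ = ‖Einv w - Einv w'‖ ≤ 2.6 ‖w - w'‖
  = 2.6 ‖Ef (a-b) - Ef (a-b')‖ ≤ 2.6 * 2.02 ‖b - b'‖ ≤ 5.3 ‖b - b'‖`.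
-/

namespace Vale.Agent.Lib.P121

/-- the solution of (E1) for `c`. -/
noncomputable def Cmap (a b : E3) : E3 := a - Einv (-((200 : ℝ) • a) - Ef (a - b))

/-- lower bound for `‖a - b‖`. -/
theorem SysC_norm_ab (e a b : E3) (he : ‖e‖ = 1) (ha : ‖a‖ ≤ r0) (hb : ‖b - e‖ ≤ r0) :
    0.998 ≤ ‖a - b‖ := by
  have h1 := norm_sub_range 0 e a b 1 r0 r0 (by simpa using he) (by simpa using ha) hb
  have := h1.1
  unfold r0 at this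
  norm_num at this ⊢
  linarith

/-- Lipschitz estimate for `Ef` on the relevant range. -/
theorem SysC_Ef_lip (v w : E3) (hv : 0.998 ≤ ‖v‖) (hw : 0.998 ≤ ‖w‖) :
    ‖Ef v - Ef w‖ ≤ 2.02 * ‖v - w‖ := by
  have h := Ef_lip 0.998 (by norm_num) v w hv hw
  have h2 : (2 : ℝ) / 0.998 ^ 3 ≤ 2.02 := by norm_num
  calc ‖Ef v - Ef w‖ ≤ 2 / 0.998 ^ 3 * ‖v - w‖ := h
    _ ≤ 2.02 * ‖v - w‖ := by gcongr

/-- the argument of `Einv` is close to `-e`. -/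
theorem SysC_w_near (e a b : E3) (he : ‖e‖ = 1) (ha : ‖a‖ ≤ r0) (hb : ‖b - e‖ ≤ r0) :
    ‖(-((200 : ℝ) • a) - Ef (a - b)) + e‖ ≤ 205 * r0 := by
  have hE : Ef (-e) = e := by rw [Ef_neg, Ef_unit e he, neg_neg]
  have h1 : (-((200 : ℝ) • a) - Ef (a - b)) + e = -((200 : ℝ) • a) - (Ef (a - b) - Ef (-e)) := by
    rw [hE]; abel
  have h2 : ‖Ef (a - b) - Ef (-e)‖ ≤ 2.02 * ‖(a - b) - (-e)‖ :=
    SysC_Ef_lip _ _ (SysC_norm_ab e a b he ha hb) (by rw [norm_neg, he]; norm_num)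
  have h3 : ‖(a - b) - (-e)‖ ≤ 2 * r0 := by
    have : (a - b) - (-e) = a - (b - e) := by abel
    rw [this]
    calc ‖a - (b - e)‖ ≤ ‖a‖ + ‖b - e‖ := norm_sub_le _ _
      _ ≤ 2 * r0 := by linarith
  have h4 : ‖-((200 : ℝ) • a)‖ ≤ 200 * r0 := by
    rw [norm_neg, norm_smul]
    have : ‖(200 : ℝ)‖ = 200 := by norm_num
    rw [this]; linarith
  rw [h1]
  calc ‖-((200 : ℝ) • a) - (Ef (a - b) - Ef (-e))‖
      ≤ ‖-((200 : ℝ) • a)‖ + ‖Ef (a - b) - Ef (-e)‖ := norm_sub_le _ _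
    _ ≤ 200 * r0 + 2.02 * (2 * r0) := by
        have : 2.02 * ‖(a - b) - (-e)‖ ≤ 2.02 * (2 * r0) := by gcongr
        linarith
    _ ≤ 205 * r0 := by unfold r0; norm_num

/-- a vector close to `-e` has norm close to one. -/
theorem SysC_norm_range (e w : E3) (he : ‖e‖ = 1) (hw : ‖w + e‖ ≤ 205 * r0) :
    0.999 ≤ ‖w‖ ∧ ‖w‖ ≤ 1.001 := by
  have h1 : ‖e‖ ≤ ‖w + e‖ + ‖w‖ := by
    have : e = (w + e) - w := by abel
    calc ‖e‖ = ‖(w + e) - w‖ := by rw [← this]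
      _ ≤ ‖w + e‖ + ‖w‖ := norm_sub_le _ _
  have h2 : ‖w‖ ≤ ‖w + e‖ + ‖e‖ := by
    have : w = (w + e) - e := by abel
    calc ‖w‖ = ‖(w + e) - e‖ := by rw [← this]
      _ ≤ ‖w + e‖ + ‖e‖ := norm_sub_le _ _
  unfold r0 at hw
  rw [he] at h1 h2
  constructor <;> norm_num at hw ⊢ <;> linarith

/-- the norm of `Einv w` for `‖w‖` close to one. -/
theorem SysC_norm_Einv_range (w : E3) (h1 : 0.999 ≤ ‖w‖) (h2 : ‖w‖ ≤ 1.001) :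
    0.998 ≤ ‖Einv w‖ ∧ ‖Einv w‖ ≤ 1.002 := by
  have hw : w ≠ 0 := by
    intro h
    rw [h, norm_zero] at h1
    norm_num at h1
  rw [norm_Einv w hw]
  have hs1 : (0.999 : ℝ) ≤ Real.sqrt ‖w‖ := by
    apply Real.le_sqrt_of_sq_le
    norm_num at h1 ⊢
    linarith
  have hs2 : Real.sqrt ‖w‖ ≤ 1.001 := by
    rw [Real.sqrt_le_left (by norm_num)]
    norm_num at h2 ⊢
    linarith
  have hpos : 0 < Real.sqrt ‖w‖ := by linarith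
  constructor
  · rw [le_inv_comm₀ (by norm_num) hpos]
    norm_num at hs2 ⊢
    linarith
  · rw [inv_le_comm₀ hpos (by norm_num)]
    norm_num at hs1 ⊢
    linarith

/-- `Einv` is Lipschitz on the relevant range. -/
theorem SysC_Einv_lip (w w' : E3) (h1 : 0.999 ≤ ‖w‖) (h2 : ‖w‖ ≤ 1.001)
    (h1' : 0.999 ≤ ‖w'‖) (h2' : ‖w'‖ ≤ 1.001) :
    ‖Einv w - Einv w'‖ ≤ 2.6 * ‖w - w'‖ := by
  have hw : w ≠ 0 := by
    intro h
    rw [h, norm_zero] at h1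
    norm_num at h1
  have hw' : w' ≠ 0 := by
    intro h
    rw [h, norm_zero] at h1'
    norm_num at h1'
  obtain ⟨a1, a2⟩ := SysC_norm_Einv_range w h1 h2
  obtain ⟨b1, b2⟩ := SysC_norm_Einv_range w' h1' h2'
  have h := Ef_antilip 0.998 1.002 (by norm_num) (Einv w) (Einv w') a1 b1 a2 b2
  rw [Ef_Einv w hw, Ef_Einv w' hw'] at h
  have hc : ((1.002 : ℝ) ^ 3 + 3 * 1.002 ^ 4 / (2 * 0.998)) ≤ 2.6 := by norm_num
  calc ‖Einv w - Einv w'‖ ≤ (1.002 ^ 3 + 3 * 1.002 ^ 4 / (2 * 0.998)) * ‖w - w'‖ := h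
    _ ≤ 2.6 * ‖w - w'‖ := by gcongr

theorem Cmap_eq (e a b : E3) (he : ‖e‖ = 1) (ha : ‖a‖ ≤ r0) (hb : ‖b - e‖ ≤ r0) :
    Ef (a - b) + Ef (a - Cmap a b) = -((200 : ℝ) • a) := by
  have hn := SysC_norm_range e _ he (SysC_w_near e a b he ha hb)
  have hw : (-((200 : ℝ) • a) - Ef (a - b)) ≠ 0 := by
    intro h
    rw [h, norm_zero] at hn
    norm_num at hn
  have h1 : a - Cmap a b = Einv (-((200 : ℝ) • a) - Ef (a - b)) := by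
    unfold Cmap; abel
  rw [h1, Ef_Einv _ hw]
  abel

theorem Cmap_near (e a b : E3) (he : ‖e‖ = 1) (ha : ‖a‖ ≤ r0) (hb : ‖b - e‖ ≤ r0) :
    ‖Cmap a b + e‖ ≤ 540 * r0 := by
  have hnear := SysC_w_near e a b he ha hb
  have hn := SysC_norm_range e _ he hnear
  have hne : (0.999 : ℝ) ≤ ‖-e‖ ∧ ‖-e‖ ≤ 1.001 := by
    rw [norm_neg, he]; constructor <;> norm_num
  have h := SysC_Einv_lip _ (-e) hn.1 hn.2 hne.1 hne.2
  rw [Einv_neg_unit e he, sub_neg_eq_add] at h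
  have h1 : Cmap a b + e = a - (Einv (-((200 : ℝ) • a) - Ef (a - b)) - e) := by
    unfold Cmap; abel
  rw [h1]
  calc ‖a - (Einv (-((200 : ℝ) • a) - Ef (a - b)) - e)‖
      ≤ ‖a‖ + ‖Einv (-((200 : ℝ) • a) - Ef (a - b)) - e‖ := norm_sub_le _ _
    _ ≤ r0 + 2.6 * (205 * r0) := by
        have : 2.6 * ‖(-((200 : ℝ) • a) - Ef (a - b)) + e‖ ≤ 2.6 * (205 * r0) := by gcongr
        linarith
    _ ≤ 540 * r0 := by unfold r0; norm_num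

theorem Cmap_lip (e a b b' : E3) (he : ‖e‖ = 1) (ha : ‖a‖ ≤ r0) (hb : ‖b - e‖ ≤ r0)
    (hb' : ‖b' - e‖ ≤ r0) : ‖Cmap a b - Cmap a b'‖ ≤ 5.3 * ‖b - b'‖ := by
  have hn := SysC_norm_range e _ he (SysC_w_near e a b he ha hb)
  have hn' := SysC_norm_range e _ he (SysC_w_near e a b' he ha hb')
  have h := SysC_Einv_lip _ _ hn.1 hn.2 hn'.1 hn'.2
  have h1 : Cmap a b - Cmap a b'
      = -(Einv (-((200 : ℝ) • a) - Ef (a - b)) - Einv (-((200 : ℝ) • a) - Ef (a - b'))) := by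
    unfold Cmap; abel
  have h2 : (-((200 : ℝ) • a) - Ef (a - b)) - (-((200 : ℝ) • a) - Ef (a - b'))
      = -(Ef (a - b) - Ef (a - b')) := by abel
  have h3 : ‖Ef (a - b) - Ef (a - b')‖ ≤ 2.02 * ‖(a - b) - (a - b')‖ :=
    SysC_Ef_lip _ _ (SysC_norm_ab e a b he ha hb) (SysC_norm_ab e a b' he ha hb')
  have h4 : ‖(a - b) - (a - b')‖ = ‖b - b'‖ := by
    have : (a - b) - (a - b') = -(b - b') := by abel
    rw [this, norm_neg]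
  rw [h2, norm_neg] at h
  rw [h4] at h3
  rw [h1, norm_neg]
  calc ‖Einv (-((200 : ℝ) • a) - Ef (a - b)) - Einv (-((200 : ℝ) • a) - Ef (a - b'))‖
      ≤ 2.6 * ‖Ef (a - b) - Ef (a - b')‖ := h
    _ ≤ 2.6 * (2.02 * ‖b - b'‖) := by gcongr
    _ ≤ 5.3 * ‖b - b'‖ := by
        have := norm_nonneg (b - b')
        nlinarith

end Vale.Agent.Lib.P121
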