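import Vale.Agent.Lib.P121.SysC

/-!
# P121 task S2: existence of a solution of the system (Banach fixed point)

Fix `‖e‖ = 1`, `‖a‖ ≤ r0`.  On the complete set `closedBall e r0` consider
`Phi b = e + (1/1000) • (-(5/4) e - Ef (b-a) - Ef (b - Cmap a b))`.
* As `Ef e + Ef (2e) = -e - e/4 = -(5/4) e` we have
  `Phi b - e = -(1/1000) ((Ef (b-a) - Ef e) + (Ef (b - Cmap a b) - Ef (2e)))`, so by `Ef_lip`
  (`d = 0.998`: constant `≤ 2.02`; `d = 1.998`: constant `≤ 0.26`), `Cmap_near`: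
  `‖Phi b - e‖ ≤ (2.02 * 2 r0 + 0.26 * 541 r0)/1000 ≤ r0`.
* `‖Phi b - Phi b'‖ ≤ (2.02 + 0.26 * 6.3)/1000 ‖b-b'‖ ≤ (1/2) ‖b-b'‖` by `Ef_lip`, `Cmap_lip`.
* `ContractingWith.exists_fixedPoint'` gives `b` with `Phi b = b`; take `c = Cmap a b`.
  (E1) is `Cmap_eq`, (E2) is the fixed point equation, `‖c+e‖ ≤ 540 r0 ≤ eta`.
The distance ranges come from `config_range` / `norm_sub_range`.
-/

namespace Vale.Agent.Lib.P121

/-- the fixed point map. -/
noncomputable def Phi (e a b : E3) : E3 :=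
  e + (1 / 1000 : ℝ) • (-((5 / 4 : ℝ) • e) - Ef (b - a) - Ef (b - Cmap a b))

theorem lipc1 : (2 : ℝ) / 0.998 ^ 3 ≤ 2.02 := by norm_num

theorem lipc2 : (2 : ℝ) / 1.998 ^ 3 ≤ 0.26 := by norm_num

theorem norm_two_unit (e : E3) (he : ‖e‖ = 1) : ‖(2 : ℝ) • e‖ = 2 := by
  rw [norm_smul, he]; norm_num

/-- lower bounds for the two relevant distances. -/
theorem dist_bounds (e a b : E3) (he : ‖e‖ = 1) (ha : ‖a‖ ≤ r0) (hb : ‖b - e‖ ≤ r0) :
    0.998 ≤ ‖b - a‖ ∧ 1.998 ≤ ‖b - Cmap a b‖ := by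
  have hc := Cmap_near e a b he ha hb
  have h1 := norm_sub_range e 0 b a 1 r0 r0 (by simpa using he) hb (by simpa using ha)
  have h2 := norm_sub_range e (-e) b (Cmap a b) 2 r0 (540 * r0)
    (by
      have : e - -e = (2 : ℝ) • e := by rw [two_smul]; abel
      rw [this, norm_two_unit e he]) hb (by simpa using hc)
  unfold r0 at h1 h2
  constructor
  · have := h1.1; norm_num at this ⊢; linarith
  · have := h2.1; norm_num at this ⊢; linarith

theorem Phi_sub_e (e a b : E3) (he : ‖e‖ = 1) :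
    Phi e a b - e = -((1 / 1000 : ℝ) • ((Ef (b - a) - Ef e) +
      (Ef (b - Cmap a b) - Ef ((2 : ℝ) • e)))) := by
  rw [Ef_unit e he, Ef_two_unit e he]
  unfold Phi
  have h54 : ((5 / 4 : ℝ) • e) = e + (1 / 4 : ℝ) • e := by
    rw [show (5 / 4 : ℝ) = 1 + 1 / 4 by norm_num, add_smul, one_smul]
  rw [h54, ← smul_neg]
  rw [add_sub_cancel_left]
  congr 1
  abel

theorem Phi_mapsTo (e a b : E3) (he : ‖e‖ = 1) (ha : ‖a‖ ≤ r0) (hb : ‖b - e‖ ≤ r0) :
    ‖Phi e a b - e‖ ≤ r0 := by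
  have hc := Cmap_near e a b he ha hb
  obtain ⟨hd1, hd2⟩ := dist_bounds e a b he ha hb
  have l1 := Ef_lip 0.998 (by norm_num) (b - a) e hd1 (by rw [he]; norm_num)
  have l2 := Ef_lip 1.998 (by norm_num) (b - Cmap a b) ((2 : ℝ) • e) hd2
    (by rw [norm_two_unit e he]; norm_num)
  have n1 : ‖b - a - e‖ ≤ 2 * r0 := by
    have : b - a - e = (b - e) - a := by abel
    rw [this]
    calc ‖(b - e) - a‖ ≤ ‖b - e‖ + ‖a‖ := norm_sub_le _ _
      _ ≤ 2 * r0 := by linarith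
  have n2 : ‖b - Cmap a b - (2 : ℝ) • e‖ ≤ 541 * r0 := by
    have : b - Cmap a b - (2 : ℝ) • e = (b - e) - (Cmap a b + e) := by rw [two_smul]; abel
    rw [this]
    calc ‖(b - e) - (Cmap a b + e)‖ ≤ ‖b - e‖ + ‖Cmap a b + e‖ := norm_sub_le _ _
      _ ≤ 541 * r0 := by linarith
  have l1' : ‖Ef (b - a) - Ef e‖ ≤ 2.02 * (2 * r0) :=
    l1.trans (mul_le_mul lipc1 n1 (norm_nonneg _) (by norm_num))
  have l2' : ‖Ef (b - Cmap a b) - Ef ((2 : ℝ) • e)‖ ≤ 0.26 * (541 * r0) :=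
    l2.trans (mul_le_mul lipc2 n2 (norm_nonneg _) (by norm_num))
  rw [Phi_sub_e e a b he, norm_neg, norm_smul]
  have l3 := norm_add_le (Ef (b - a) - Ef e) (Ef (b - Cmap a b) - Ef ((2 : ℝ) • e))
  have hr : (0 : ℝ) < r0 := by unfold r0; norm_num
  rw [Real.norm_of_nonneg (by norm_num)]
  nlinarith

theorem Phi_lip (e a b b' : E3) (he : ‖e‖ = 1) (ha : ‖a‖ ≤ r0) (hb : ‖b - e‖ ≤ r0)
    (hb' : ‖b' - e‖ ≤ r0) : ‖Phi e a b - Phi e a b'‖ ≤ 1 / 2 * ‖b - b'‖ := by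
  obtain ⟨hd1, hd2⟩ := dist_bounds e a b he ha hb
  obtain ⟨hd1', hd2'⟩ := dist_bounds e a b' he ha hb'
  have l1 := Ef_lip 0.998 (by norm_num) (b - a) (b' - a) hd1 hd1'
  have l2 := Ef_lip 1.998 (by norm_num) (b - Cmap a b) (b' - Cmap a b') hd2 hd2'
  have lc := Cmap_lip e a b b' he ha hb hb'
  have n1 : b - a - (b' - a) = b - b' := by abel
  have n2 : ‖b - Cmap a b - (b' - Cmap a b')‖ ≤ 6.3 * ‖b - b'‖ := by
    have : b - Cmap a b - (b' - Cmap a b') = (b - b') - (Cmap a b - Cmap a b') := by abel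
    rw [this]
    calc ‖(b - b') - (Cmap a b - Cmap a b')‖ ≤ ‖b - b'‖ + ‖Cmap a b - Cmap a b'‖ :=
          norm_sub_le _ _
      _ ≤ 6.3 * ‖b - b'‖ := by linarith
  rw [n1] at l1
  have l1' : ‖Ef (b - a) - Ef (b' - a)‖ ≤ 2.02 * ‖b - b'‖ :=
    l1.trans (mul_le_mul_of_nonneg_right lipc1 (norm_nonneg _))
  have l2' : ‖Ef (b - Cmap a b) - Ef (b' - Cmap a b')‖ ≤ 0.26 * (6.3 * ‖b - b'‖) :=
    l2.trans (mul_le_mul lipc2 n2 (norm_nonneg _) (by norm_num))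
  have key : Phi e a b - Phi e a b' = -((1 / 1000 : ℝ) • ((Ef (b - a) - Ef (b' - a)) +
      (Ef (b - Cmap a b) - Ef (b' - Cmap a b')))) := by
    unfold Phi
    module
  rw [key, norm_neg, norm_smul, Real.norm_of_nonneg (by norm_num)]
  have l3 := norm_add_le (Ef (b - a) - Ef (b' - a))
    (Ef (b - Cmap a b) - Ef (b' - Cmap a b'))
  have := norm_nonneg (b - b')
  nlinarith

theorem exists_sol (e a : E3) (he : ‖e‖ = 1) (ha : ‖a‖ ≤ r0) : ∃ b c, IsSol e a b c := by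
  have hr : (0 : ℝ) < r0 := by unfold r0; norm_num
  have hsc : IsComplete (Metric.closedBall e r0) := Metric.isClosed_closedBall.isComplete
  have hsf : Set.MapsTo (Phi e a) (Metric.closedBall e r0) (Metric.closedBall e r0) := by
    intro b hb
    rw [mem_closedBall_iff_norm] at hb ⊢
    exact Phi_mapsTo e a b he ha hb
  have hf : ContractingWith (1 / 2 : NNReal) (Set.MapsTo.restrict (Phi e a) _ _ hsf) := by
    refine ⟨by norm_num, ?_⟩
    refine LipschitzWith.of_dist_le_mul ?_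
    rintro ⟨b, hb⟩ ⟨b', hb'⟩
    rw [mem_closedBall_iff_norm] at hb hb'
    have := Phi_lip e a b b' he ha hb hb'
    simpa [Subtype.dist_eq, dist_eq_norm] using this
  obtain ⟨b, hbs, hfix, -⟩ := hf.exists_fixedPoint' hsc hsf
    (Metric.mem_closedBall_self hr.le) (edist_ne_top _ _)
  rw [mem_closedBall_iff_norm] at hbs
  refine ⟨b, Cmap a b, hbs, ?_, Cmap_eq e a b he ha hbs, ?_⟩
  · have := Cmap_near e a b he ha hbs
    unfold r0 at this
    unfold eta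
    norm_num at this ⊢
    linarith
  · have h1 : Phi e a b = b := hfix
    unfold Phi at h1
    have h2 : (1 / 1000 : ℝ) • (-((5 / 4 : ℝ) • e) - Ef (b - a) - Ef (b - Cmap a b)) = b - e := by
      rw [← h1]; simp only [add_sub_cancel_left]; rw [h1]
    have h3 : (1000 : ℝ) • (b - e) = -((5 / 4 : ℝ) • e) - Ef (b - a) - Ef (b - Cmap a b) := by
      rw [← h2, smul_smul]; norm_num
    rw [h3]; abel

end Vale.Agent.Lib.P121
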